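import Vale.Agent.P171.Geom

/-! Grids of boxes. -/

open MeasureTheory Set Metric
open scoped ENNReal

namespace Vale.Agent.P171

noncomputable section

/-- A translated cube. -/
def tr (a : Fin 3 → ℝ) (L : ℝ) : Set E := (· + WithLp.toLp 2 a) ⁻¹' cube L

theorem mem_tr {a : Fin 3 → ℝ} {L : ℝ} {x : E} : x ∈ tr a L ↔ ∀ i, x i + a i ∈ Icc 0 L := Iff.rfl

theorem meas_tr (a : Fin 3 → ℝ) (L : ℝ) : MeasurableSet (tr a L) :=
  measurable_add_const _ (meas_cube L)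

theorem Xi_tr (a : Fin 3 → ℝ) (L μ : ℝ) {g : E → E → ℝ} (hg : ∀ x y v, g (x + v) (y + v) = g x y) :
    Xi (tr a L) μ g = Xi (cube L) μ g :=
  Xi_map (measurePreserving_add_right _ _) (measurableEmbedding_addRight _) _ μ fun _ _ => hg ..

theorem Xi_super {g : E → E → ℝ} (hm : Measurable (Function.uncurry g))
    (hg : ∀ x y v, g (x + v) (y + v) = g x y) (far : ∀ x y, 2 ≤ dist x y → 0 ≤ g x y) (μ : ℝ)
    {ℓ L : ℝ} (hℓ : 0 ≤ ℓ) {j : ℕ} (h : j * (ℓ + 2) ≤ L) :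
    Xi (cube ℓ) μ g ^ (j ^ 3) ≤ Xi (cube L) μ g := by
  let Λ : (Fin 3 → Fin j) → Set E := fun b => tr (fun i => -((b i : ℕ) * (ℓ + 2))) ℓ
  have hfar : ∀ b b', b ≠ b' → ∀ x ∈ Λ b, ∀ y ∈ Λ b', 2 ≤ dist x y := by
    intro b b' hb x hx y hy
    obtain ⟨i, hi⟩ := Function.ne_iff.1 hb
    refine le_trans ?_ (PiLp.dist_apply_le x y i)
    have h1 := mem_tr.1 hx i
    have h2 := mem_tr.1 hy i
    rw [Real.dist_eq, le_abs]
    rcases lt_or_gt_of_ne hi with hi | hi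
    · have : ((b i : ℕ) : ℝ) + 1 ≤ (b' i : ℕ) := by exact_mod_cast hi
      right; nlinarith [h1.2, h2.1]
    · have : ((b' i : ℕ) : ℝ) + 1 ≤ (b i : ℕ) := by exact_mod_cast hi
      left; nlinarith [h1.1, h2.2]
  have := prod_le_Xi Finset.univ (Λ := Λ) (fun _ => meas_tr _ _)
    (fun b b' hb => disjoint_left.2 fun x hx hx' => by
      have := hfar b b' hb x hx x hx'
      norm_num at this) μ hm (Ω := cube L) (fun b _ x hx i => by
      have h1 := mem_tr.1 hx i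
      have : ((b i : ℕ) : ℝ) + 1 ≤ j := by exact_mod_cast (b i).2
      have h0 : (0 : ℝ) ≤ (b i : ℕ) := by positivity
      constructor <;> nlinarith [h1.1, h1.2])
    fun b b' hb x hx y hy => far x y (hfar b b' hb x hx y hy)
  simpa [Λ, Xi_tr _ _ _ hg] using this

/-- The index of the box containing a point. -/
def cell (ℓ s : ℝ) (x : E) : Fin 3 → ℤ := fun i => ⌊(x i + s) / ℓ⌋

theorem fiber_eq {ℓ : ℝ} (h : 0 < ℓ) (s : ℝ) (b : Fin 3 → ℤ) :
    cell ℓ s ⁻¹' {b} = {x | ∀ i, x i ∈ Ico (b i * ℓ - s) (b i * ℓ - s + ℓ)} := by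
  ext x
  simp only [mem_preimage, mem_singleton_iff, funext_iff, cell, Int.floor_eq_iff, mem_setOf_eq,
    mem_Ico, le_div_iff₀ h, div_lt_iff₀ h]
  refine forall_congr' fun i => and_congr ?_ ?_ <;> constructor <;> intro h <;> linarith

theorem meas_fiber {ℓ : ℝ} (h : 0 < ℓ) (s : ℝ) (b : Fin 3 → ℤ) :
    MeasurableSet (cell ℓ s ⁻¹' {b}) := fiber_eq h s b ▸ meas_box fun _ => measurableSet_Ico

theorem vol_fiber {ℓ : ℝ} (h : 0 < ℓ) (s : ℝ) (b : Fin 3 → ℤ) :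
    volume (cell ℓ s ⁻¹' {b}) = ENNReal.ofReal (ℓ ^ 3) :=
  fiber_eq h s b ▸ vol_box (fun _ => measurableSet_Ico) h.le fun _ => by simp

theorem Xi_grid {g : E → E → ℝ} (hm : Measurable (Function.uncurry g))
    (hg : ∀ x y v, g (x + v) (y + v) = g x y) (μ : ℝ) {ℓ s : ℝ} (hs : 0 ≤ s) (hℓ : s < ℓ) (j : ℕ) :
    Xi (cube (j * ℓ)) μ (fun x y => if cell ℓ s x = cell ℓ s y then g x y else 0)
      ≤ Xi (cube ℓ) μ g ^ ((j + 1) ^ 3) := by
  have h0 := hs.trans_lt hℓ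
  refine (Xi_le_prod (Fintype.piFinset fun _ => Finset.Icc 0 (j : ℤ)) (meas_fiber h0 s) μ hm
    (meas_cube _) fun x hx => ?_).trans
    ((Finset.prod_le_pow_card _ _ (Xi (cube ℓ) μ g) fun b _ => ?_).trans ?_)
  · simp only [Fintype.mem_piFinset, Finset.mem_Icc, cell]
    intro i
    have := hx i
    refine ⟨Int.floor_nonneg.2 (div_nonneg (add_nonneg this.1 hs) h0.le), ?_⟩
    rw [← Int.lt_add_one_iff, Int.floor_lt, div_lt_iff₀ h0]
    push_cast
    linarith [this.2]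
  · rw [← Xi_tr (fun i => s - b i * ℓ) ℓ μ hg]
    refine Xi_mono (meas_fiber h0 s b) (fun x hx => mem_tr.2 fun i => ?_) fun _ _ _ _ => le_rfl
    rw [fiber_eq h0] at hx
    constructor <;> linarith [(hx i).1, (hx i).2]
  · simp

theorem cmp_cell {R ℓ : ℝ} (hR : 0 < R) (hℓ : 0 < ℓ) (s : ℝ) (l : List E) :
    D2 (jk R) l ≤ D2 (fun x y => if cell ℓ s x = cell ℓ s y then
      (1 + 2 * ℓ / R) ^ 6 / (2 * ℓ ^ 3) else 0) l := by
  have p := v1_pos
  have := cmp_ov (S := fun x => cell ℓ s ⁻¹' {cell ℓ s x}) (fun _ => meas_fiber hℓ s _)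
    (fun _ => vol_fiber hℓ s _) (by positivity) (r := 2 * ℓ) (by positivity) hR.le
    (fun x y hy => by
      have hx : x ∈ cell ℓ s ⁻¹' {cell ℓ s x} := rfl
      rw [fiber_eq hℓ] at hx hy
      have : ∀ i, dist (y i) (x i) ^ 2 ≤ ℓ ^ 2 := fun i => by
        rw [Real.dist_eq, sq_abs]
        exact sq_le_sq' (by linarith [(hx i).2, (hy i).1]) (by linarith [(hx i).1, (hy i).2])
      refine mem_ball.2 (lt_of_pow_lt_pow_left₀ 2 (by positivity) ?_)
      rw [EuclideanSpace.dist_sq_eq, Fin.sum_univ_three]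
      nlinarith [this 0, this 1, this 2, sq_pos_of_pos hℓ]) l
  have e : (fun x y => if cell ℓ s x = cell ℓ s y then (1 + 2 * ℓ / R) ^ 6 / (2 * ℓ ^ 3) else 0) =
      fun x y => (1 + 2 * ℓ / R) ^ 6 / (2 * ℓ ^ 6) *
        ov (fun x => cell ℓ s ⁻¹' {cell ℓ s x}) x y := by
    funext x y
    split_ifs with h
    · rw [ov, h, inter_self, vol_fiber hℓ, ENNReal.toReal_ofReal (by positivity)]
      field_simp
    · rw [ov, ((disjoint_singleton.2 h).preimage _).inter_eq]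
      simp
  unfold jk
  rw [e, D2_mul, D2_mul]
  refine le_of_mul_le_mul_left ?_ (a := 2 * (R ^ 3 * v1) ^ 2 * (ℓ ^ 3) ^ 2) (by positivity)
  refine le_trans (le_of_eq ?_) (this.trans (le_of_eq ?_)) <;> field_simp

theorem shift_one {ℓ : ℕ} (hℓ : 0 < ℓ) {a b : ℝ} {n : ℕ} (h : |a - b| ≤ n) :
    ∑ s ∈ Finset.range ℓ, (if ⌊(a + s) / ℓ⌋ = ⌊(b + s) / ℓ⌋ then 0 else 1 : ℝ) ≤ n := by
  have h0 : (0 : ℝ) < ℓ := by exact_mod_cast hℓ
  wlog hab : a ≤ b generalizing a b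
  · simpa only [eq_comm] using this (by rwa [abs_sub_comm]) (le_of_not_ge hab)
  let F : ℝ → ℤ := fun a => ∑ s ∈ Finset.range ℓ, ⌊(a + s) / ℓ⌋
  have F1 : ∀ a, F (a + 1) = F a + 1 := fun a => by
    have h1 := Finset.sum_range_succ (fun s : ℕ => ⌊(a + s) / ℓ⌋) ℓ
    rw [Finset.sum_range_succ', add_div, add_div a ℓ, div_self h0.ne', Int.floor_add_one] at h1
    simp only [Nat.cast_zero, zero_div, add_zero, Nat.cast_add, Nat.cast_one] at h1
    simp only [F, add_assoc, add_comm (1 : ℝ)]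
    linarith
  have Fn : ∀ n : ℕ, F (a + n) = F a + n := fun n => by
    induction n with
    | zero => simp
    | succ n ih => push_cast; rw [← add_assoc, F1, ih, add_assoc]
  have mono : ∀ {a b : ℝ} (s : ℕ), a ≤ b → ⌊(a + s) / ℓ⌋ ≤ ⌊(b + s) / ℓ⌋ := fun s h => by gcongr
  have h1 : F b ≤ F (a + n) := Finset.sum_le_sum fun s _ => mono s (by linarith [(abs_le.1 h).1])
  have h2 : ∑ s ∈ Finset.range ℓ, (if ⌊(a + s) / ℓ⌋ = ⌊(b + s) / ℓ⌋ then 0 else 1 : ℤ)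
      ≤ F b - F a := by
    rw [← Finset.sum_sub_distrib]
    refine Finset.sum_le_sum fun s _ => ?_
    have := mono s hab
    split_ifs <;> omega
  have h3 : ∑ s ∈ Finset.range ℓ, (if ⌊(a + s) / ℓ⌋ = ⌊(b + s) / ℓ⌋ then 0 else 1 : ℤ) ≤ n := by
    linarith [Fn n]
  exact_mod_cast h3

theorem shift_ex {ℓ : ℕ} (hℓ : 0 < ℓ) {n : ℕ} {ψ : E → E → ℝ} (h0 : ∀ x y, 0 ≤ ψ x y)
    (hn : ∀ x y, (n : ℝ) ≤ dist x y → ψ x y = 0) (l : List E) : ∃ s ∈ Finset.range ℓ,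
      D2 ψ l ≤ D2 (fun x y => if cell ℓ s x = cell ℓ s y then ψ x y else 0) l
        + 3 * n / ℓ * D2 ψ l := by
  have hl : (0 : ℝ) < ℓ := by exact_mod_cast hℓ
  refine Finset.exists_le_of_sum_le ⟨0, by simpa⟩ ?_
  rw [Finset.sum_add_distrib, ← D2_sum, ← D2_sum, Finset.sum_const, Finset.card_range, nsmul_eq_mul,
    ← mul_assoc, ← D2_mul, ← D2_add]
  refine D2_mono fun x _ y _ => ?_
  rcases le_or_gt (n : ℝ) (dist x y) with h | h
  · simp [hn x y h]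
  have h1 : ∀ i, ∑ s ∈ Finset.range ℓ, (if cell ℓ s x i = cell ℓ s y i then 0 else 1 : ℝ) ≤ n :=
    fun i => shift_one hℓ ((PiLp.dist_apply_le x y i).trans h.le)
  have h2 : ∑ s ∈ Finset.range ℓ, ψ x y ≤ ∑ s ∈ Finset.range ℓ,
      ((if cell ℓ s x = cell ℓ s y then ψ x y else 0) +
        (∑ i, (if cell ℓ s x i = cell ℓ s y i then 0 else 1 : ℝ)) * ψ x y) := by
    refine Finset.sum_le_sum fun s _ => ?_
    have nn : ∀ i ∈ Finset.univ, 0 ≤ (if cell ℓ s x i = cell ℓ s y i then 0 else 1 : ℝ) :=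
      fun i _ => by split_ifs <;> norm_num
    split_ifs with hc
    · exact le_add_of_nonneg_right (mul_nonneg (Finset.sum_nonneg nn) (h0 x y))
    · obtain ⟨i, hi⟩ := Function.ne_iff.1 hc
      have := Finset.single_le_sum nn (Finset.mem_univ i)
      rw [if_neg hi] at this
      nlinarith [h0 x y]
  rw [Finset.sum_add_distrib, ← Finset.sum_mul, Finset.sum_comm, Fin.sum_univ_three] at h2
  rw [mul_div_cancel₀ _ hl.ne']
  nlinarith [h1 0, h1 1, h1 2, h0 x y]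

end

end Vale.Agent.P171
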