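import Vale.Agent.P171.Main

/-! Translation to the pair-potential formulation. -/

open MeasureTheory Set Metric Filter Topology
open scoped ENNReal NNReal

namespace Vale.Agent.P171

noncomputable section

theorem D2_energy (φ : ℝ → ℝ) {N : ℕ} (x : Fin N → E) :
    D2 (fun x y => -(φ ‖x - y‖) / 2) (List.ofFn x) = -energy φ x - N * (φ 0 / 2) := by
  have := Finset.sum_sum_Ioi_add_eq_sum_sum_off_diag fun i j => φ ‖x j - x i‖
  have e : ∀ i, ∑ j, -(φ ‖x i - x j‖) / 2
      = -(φ 0 / 2) - (∑ j ∈ {i}ᶜ, φ ‖x i - x j‖) / 2 := fun i => by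
    rw [← Finset.sum_div, Finset.sum_neg_distrib, ← Finset.sum_add_sum_compl {i}]
    simp
    ring
  have e2 : ∀ i j, φ ‖x i - x j‖ + φ ‖x j - x i‖ = 2 * φ ‖x i - x j‖ := fun i j => by
    rw [norm_sub_rev (x j), two_mul]
  simp only [e2, ← Finset.mul_sum] at this
  simp only [D2_ofFn, e, Finset.sum_sub_distrib, ← Finset.sum_div, Finset.sum_const,
    Finset.card_univ, Fintype.card_fin, nsmul_eq_mul, energy, ← this]
  ring

theorem term_eq {φ : ℝ → ℝ} (hφ : Continuous φ) {z : ℝ} (hz : 0 < z) (L : ℝ) (N : ℕ) :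
    ((Tp (cube L))^[N] (wt (Real.log z + φ 0 / 2) fun x y => -(φ ‖x - y‖) / 2) [] /
      N.factorial).toReal = z ^ N * canonicalZ φ 1 L N := by
  have hc : Continuous fun x : Fin N → E => Real.exp (-1 * energy φ x) := by
    unfold energy
    fun_prop
  rw [iter_eq_lintegral N (meas_wt (by unfold Function.uncurry; fun_prop) _), canonicalZ,
    integral_eq_lintegral_of_nonneg_ae (.of_forall fun _ => (Real.exp_pos _).le)
      hc.aestronglyMeasurable]
  have e : ∀ x : Fin N → E, wt (Real.log z + φ 0 / 2) (fun x y => -(φ ‖x - y‖) / 2) (List.ofFn x)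
      = ENNReal.ofReal (z ^ N) * ENNReal.ofReal (Real.exp (-1 * energy φ x)) := fun x => by
    rw [wt, D2_energy, ← ENNReal.ofReal_mul (by positivity), ← Real.exp_log (pow_pos hz N),
      ← Real.exp_add, Real.log_pow, List.length_ofFn, eexp]
    congr 2
    ring
  simp only [e]
  rw [lintegral_const_mul' _ _ ENNReal.ofReal_ne_top, ENNReal.toReal_div, ENNReal.toReal_mul,
    ENNReal.toReal_ofReal (by positivity), ENNReal.toReal_natCast]
  ring

theorem Good.pressure {φ : ℝ → ℝ} (hφ : Continuous φ) (G : Good fun x y => -(φ ‖x - y‖) / 2)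
    {z : ℝ} (hz : 0 < z) : (∀ L, 0 ≤ L → Summable fun N => z ^ N * canonicalZ φ 1 L N) ∧
      Tendsto (fun L => Real.log (∑' N, z ^ N * canonicalZ φ 1 L N) / L ^ 3) atTop
        (𝓝 (pr (fun x y => -(φ ‖x - y‖) / 2) (Real.log z + φ 0 / 2))) := by
  have fin := fun L hL => ne_top_of_le_ne_top (eexp_ne_top _)
    (G.Xi_le (μ := Real.log z + φ 0 / 2) (L := L) hL)
  simp only [← term_eq hφ hz]
  refine ⟨fun L hL => ENNReal.summable_toReal (fin L hL), (G.lim _).congr' ?_⟩
  filter_upwards [eventually_ge_atTop 0] with L hL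
  rw [← ENNReal.tsum_toReal_eq (ENNReal.ne_top_of_tsum_ne_top (fin L hL))]
  rfl

theorem Jk_zero {R r : ℝ} (hr : 0 ≤ r) (h : 2 * R ≤ r) : Jk R r = 0 :=
  jk_zero (by simpa [e0, norm_smul, abs_of_nonneg hr] using h)

theorem Jk_decay {R r ε : ℝ} (hR : 0 < R) (hr : 0 < r) (hε : 0 < ε) :
    Jk R r ≤ R ^ ε * (2 ^ (3 + ε) / (2 * v1) * r ^ (-3 - ε)) := by
  have p := v1_pos
  rcases le_or_gt (2 * R) r with h | h
  · rw [Jk_zero hr.le h]
    positivity
  refine (jk_le hR _ _).trans ?_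
  have h1 : r ^ (3 + ε) ≤ 2 ^ (3 + ε) * (R ^ 3 * R ^ ε) := by
    rw [← Real.rpow_natCast, ← Real.rpow_add hR, Nat.cast_ofNat,
      ← Real.mul_rpow zero_le_two hR.le]
    gcongr
  rw [show -3 - ε = -(3 + ε) by ring, Real.rpow_neg hr.le]
  have := Real.rpow_pos_of_pos hr (3 + ε)
  rw [← div_eq_mul_inv, ← mul_div_assoc, le_div_iff₀ this]
  refine (mul_le_mul_of_nonneg_left h1 (by positivity)).trans (le_of_eq ?_)
  field_simp

end

end Vale.Agent.P171
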