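import Mathlib

/-! Classical continuum particle systems in three dimensions with a radial pair potential. -/

open MeasureTheory

namespace Vale.Agent.P171

/-- The cube `[0, L]^3`. -/
def cube (L : ℝ) : Set (EuclideanSpace ℝ (Fin 3)) := {x | ∀ i, x i ∈ Set.Icc 0 L}

/-- The energy `U_N(x) = ∑_{i < j} φ(|x_i - x_j|)`. -/
noncomputable def energy (φ : ℝ → ℝ) {N : ℕ} (x : Fin N → EuclideanSpace ℝ (Fin 3)) : ℝ :=
  ∑ i, ∑ j ∈ Finset.Ioi i, φ ‖x i - x j‖

/-- The canonical partition function `Z_{L,N}(β)`. -/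
noncomputable def canonicalZ (φ : ℝ → ℝ) (β L : ℝ) (N : ℕ) : ℝ :=
  (1 / (N.factorial : ℝ)) *
    ∫ x in Set.pi Set.univ (fun _ : Fin N => cube L), Real.exp (-β * energy φ x)

end Vale.Agent.P171
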