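import Vale.Agent.P171.Poisson

/-! One-body and two-body sums over lists; grand partition functions. -/

open MeasureTheory Set
open scoped ENNReal

namespace Vale.Agent.P171

noncomputable section

section Sums

variable {α M : Type} [AddCommMonoid M]

/-- One-body sum. -/
def S1 (f : α → M) (l : List α) : M := (l.map f).sum

/-- Two-body sum over ordered pairs, diagonal included. -/
def D2 (g : α → α → M) (l : List α) : M := S1 (fun x => S1 (g x) l) l

@[simp] theorem S1_nil (f : α → M) : S1 f [] = 0 := rfl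

@[simp] theorem S1_cons (f : α → M) (x : α) (l : List α) : S1 f (x :: l) = f x + S1 f l := by
  simp [S1]

@[simp] theorem S1_append (f : α → M) (l l' : List α) : S1 f (l ++ l') = S1 f l + S1 f l' := by
  simp [S1]

theorem S1_add (f g : α → M) (l : List α) : S1 (fun x => f x + g x) l = S1 f l + S1 g l :=
  List.sum_map_add

theorem S1_congr {f g : α → M} {l : List α} (h : ∀ x ∈ l, f x = g x) : S1 f l = S1 g l := by
  rw [S1, List.map_congr_left h, S1]

theorem S1_const (c : M) (l : List α) : S1 (fun _ => c) l = l.length • c := by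
  simp [S1]

theorem S1_sum {ι : Type} (s : Finset ι) (f : ι → α → M) (l : List α) :
    S1 (fun x => ∑ i ∈ s, f i x) l = ∑ i ∈ s, S1 (f i) l := by
  induction l with
  | nil => simp
  | cons x l ih => simp [ih, Finset.sum_add_distrib]

theorem S1_mono [PartialOrder M] [IsOrderedAddMonoid M] {f g : α → M} {l : List α}
    (h : ∀ x ∈ l, f x ≤ g x) : S1 f l ≤ S1 g l := List.sum_le_sum h

theorem S1_nonneg [PartialOrder M] [IsOrderedAddMonoid M] {f : α → M} {l : List α}
    (h : ∀ x ∈ l, 0 ≤ f x) : 0 ≤ S1 f l := by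
  simpa [S1_const] using S1_mono (f := fun _ => 0) h

theorem le_S1 [PartialOrder M] [IsOrderedAddMonoid M] {f : α → M} {l : List α}
    (h : ∀ x ∈ l, 0 ≤ f x) {x : α} (hx : x ∈ l) : f x ≤ S1 f l :=
  List.single_le_sum (by simpa using h) _ (List.mem_map_of_mem hx)

theorem S1_map {β : Type} (f : α → M) (e : β → α) (l : List β) :
    S1 f (l.map e) = S1 (fun x => f (e x)) l := by
  simp [S1, Function.comp_def]

theorem S1_ofFn {N : ℕ} (f : α → M) (x : Fin N → α) : S1 f (List.ofFn x) = ∑ i, f (x i) := by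
  simp [S1, List.map_ofFn, List.sum_ofFn]

theorem S1_mul {R : Type} [Semiring R] (c : R) (f : α → R) (l : List α) :
    S1 (fun x => c * f x) l = c * S1 f l := List.sum_map_mul_left ..

theorem S1_mul_S1 {R : Type} [Semiring R] (f g : α → R) (l : List α) :
    S1 f l * S1 g l = D2 (fun x y => f x * g y) l := by
  simp only [D2, S1_mul]
  exact (List.sum_map_mul_right ..).symm

theorem S1_hasSum {f : ℕ → α → ℝ} {F : α → ℝ} (h : ∀ x, HasSum (fun k => f k x) (F x))
    (l : List α) : HasSum (fun k => S1 (f k) l) (S1 F l) := by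
  induction l with
  | nil => simpa using hasSum_zero
  | cons x l ih => simpa using (h x).add ih

theorem ofReal_S1 {f : α → ℝ} (h : ∀ x, 0 ≤ f x) (l : List α) :
    ENNReal.ofReal (S1 f l) = S1 (fun x => ENNReal.ofReal (f x)) l := by
  induction l with
  | nil => simp
  | cons x l ih => simp [ENNReal.ofReal_add (h x) (S1_nonneg fun y _ => h y), ih]

theorem measurable_S1 {β : Type} [MeasurableSpace β] {F : α → β → ℝ≥0∞}
    (h : ∀ x, Measurable (F x)) (l : List α) : Measurable fun u => S1 (fun x => F x u) l := by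
  induction l with
  | nil => simp
  | cons x l ih => simpa using (h x).fun_add ih

theorem lintegral_S1 {β : Type} [MeasurableSpace β] (μ : Measure β) {F : α → β → ℝ≥0∞}
    (h : ∀ x, Measurable (F x)) (l : List α) :
    ∫⁻ u, S1 (fun x => F x u) l ∂μ = S1 (fun x => ∫⁻ u, F x u ∂μ) l := by
  induction l with
  | nil => simp
  | cons x l ih => simp [lintegral_add_left (h x), ih]

@[simp] theorem D2_nil (g : α → α → M) : D2 g [] = 0 := rfl

theorem D2_add (f g : α → α → M) (l : List α) :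
    D2 (fun x y => f x y + g x y) l = D2 f l + D2 g l := by
  simp only [D2, S1_add]

theorem D2_mul {R : Type} [Semiring R] (c : R) (g : α → α → R) (l : List α) :
    D2 (fun x y => c * g x y) l = c * D2 g l := by
  simp only [D2, S1_mul]

theorem D2_const (c : ℝ) (l : List α) : D2 (fun _ _ => c) l = c * (l.length : ℝ) ^ 2 := by
  simp only [D2, S1_const, nsmul_eq_mul]; ring

theorem D2_sum {ι : Type} (s : Finset ι) (g : ι → α → α → M) (l : List α) :
    D2 (fun x y => ∑ i ∈ s, g i x y) l = ∑ i ∈ s, D2 (g i) l := by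
  simp only [D2, S1_sum]

theorem D2_mono [PartialOrder M] [IsOrderedAddMonoid M] {f g : α → α → M} {l : List α}
    (h : ∀ x ∈ l, ∀ y ∈ l, f x y ≤ g x y) : D2 f l ≤ D2 g l :=
  S1_mono fun x hx => S1_mono (h x hx)

theorem D2_nonneg [PartialOrder M] [IsOrderedAddMonoid M] {g : α → α → M} (h : ∀ x y, 0 ≤ g x y)
    (l : List α) : 0 ≤ D2 g l := S1_nonneg fun x _ => S1_nonneg fun y _ => h x y

theorem D2_diag [PartialOrder M] [IsOrderedAddMonoid M] {g : α → α → M} (h : ∀ x y, 0 ≤ g x y)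
    (l : List α) : S1 (fun x => g x x) l ≤ D2 g l :=
  S1_mono fun x hx => le_S1 (fun y _ => h x y) hx

theorem D2_map {β : Type} (g : α → α → M) (e : β → α) (l : List β) :
    D2 g (l.map e) = D2 (fun x y => g (e x) (e y)) l := by
  simp only [D2, S1_map]

theorem D2_ofFn {N : ℕ} (g : α → α → M) (x : Fin N → α) :
    D2 g (List.ofFn x) = ∑ i, ∑ j, g (x i) (x j) := by
  simp only [D2, S1_ofFn]

theorem D2_hasSum {f : ℕ → α → α → ℝ} {F : α → α → ℝ}
    (h : ∀ x y, HasSum (fun k => f k x y) (F x y)) (l : List α) :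
    HasSum (fun k => D2 (f k) l) (D2 F l) :=
  S1_hasSum (f := fun k x => S1 (f k x) l) (fun x => S1_hasSum (h x) l) l

theorem D2_ignore {g : α → α → M} {x : α} (h : ∀ y, g x y = 0 ∧ g y x = 0) (l1 l2 : List α) :
    D2 g (l1 ++ x :: l2) = D2 g (l1 ++ l2) := by
  have h0 : ∀ l, S1 (g x) l = 0 := fun l => by
    rw [S1_congr (g := fun _ => 0) fun y _ => (h y).1]; simp [S1_const]
  simp [D2, fun y => (h y).2, h0]

end Sums

variable {α : Type} [MeasureSpace α]

theorem meas_S1 {f : α → ℝ} (h : Measurable f) : Meas (S1 f) := fun N => by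
  simp only [S1_ofFn]; fun_prop

theorem meas_D2 {g : α → α → ℝ} (h : Measurable (Function.uncurry g)) : Meas (D2 g) := fun N => by
  simp only [D2_ofFn]
  refine Finset.measurable_sum _ fun i _ => Finset.measurable_sum _ fun j _ => ?_
  exact h.comp (f := fun a : Fin N → α => (a i, a j)) (by fun_prop)

/-- The Boltzmann weight. -/
def wt (μ : ℝ) (g : α → α → ℝ) (l : List α) : ℝ≥0∞ := eexp (μ * l.length + D2 g l)

theorem meas_wt {g : α → α → ℝ} (h : Measurable (Function.uncurry g)) (μ : ℝ) : Meas (wt μ g) :=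
  fun N => measurable_eexp.comp ((meas_length (fun n => μ * n) N).add (meas_D2 h N))

/-- The grand partition function. -/
def Xi (Λ : Set α) (μ : ℝ) (g : α → α → ℝ) : ℝ≥0∞ := PI Λ (wt μ g)

theorem Xi_le_mul {Λ Λ' : Set α} (hΛ : MeasurableSet Λ) (hs : Λ ⊆ Λ') {μ μ' c : ℝ}
    {g g' : α → α → ℝ} (h : ∀ l : List α, (∀ x ∈ l, x ∈ Λ) →
      μ * l.length + D2 g l ≤ c + (μ' * l.length + D2 g' l)) :
    Xi Λ μ g ≤ eexp c * Xi Λ' μ' g' := by
  rw [Xi, Xi, ← PI_const_mul _ (eexp_ne_top c)]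
  exact PI_mono hΛ hs fun l hl => by rw [wt, wt, ← eexp_add]; exact eexp_mono (h l hl)

theorem Xi_mono {Λ Λ' : Set α} (hΛ : MeasurableSet Λ) (hs : Λ ⊆ Λ') {μ : ℝ}
    {g g' : α → α → ℝ} (h : ∀ x ∈ Λ, ∀ y ∈ Λ, g x y ≤ g' x y) : Xi Λ μ g ≤ Xi Λ' μ g' := by
  simpa using Xi_le_mul hΛ hs (c := 0) (μ := μ) (μ' := μ) fun l hl => by
    simpa using D2_mono fun x hx y hy => h x (hl x hx) y (hl y hy)

theorem one_le_Xi (Λ : Set α) (μ : ℝ) (g : α → α → ℝ) : 1 ≤ Xi Λ μ g := by
  simpa [wt, Xi] using le_PI_zero Λ (wt μ g)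

theorem Xi_map {e : α → α} (he : MeasurePreserving e) (hm : MeasurableEmbedding e) (Λ : Set α)
    (μ : ℝ) {g : α → α → ℝ} (hg : ∀ x y, g (e x) (e y) = g x y) : Xi (e ⁻¹' Λ) μ g = Xi Λ μ g := by
  rw [Xi, Xi, ← PI_map he hm Λ]
  simp only [wt, D2_map, hg, List.length_map]
  rfl

variable [SigmaFinite (volume : Measure α)]

theorem PI_split {Λ : Set α} (hΛ : MeasurableSet Λ) {V : ℝ} (hV : 0 ≤ V)
    (h : volume Λ ≤ ENNReal.ofReal V) (a : ℝ) {F G : List α → ℝ≥0∞}
    (hF : ∀ l : List α, (∀ x ∈ l, x ∈ Λ) →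
      F l ≤ eexp (a * l.length - Real.exp a * V) ∨ F l ≤ G l) : PI Λ F ≤ 1 + PI Λ G := by
  refine (PI_mono hΛ subset_rfl (G := fun l =>
    eexp (-(Real.exp a * V)) * eexp (a * l.length) + G l) fun l hl => ?_).trans ?_
  · rw [← eexp_add, neg_add_eq_sub]
    exact (hF l hl).elim le_add_right le_add_left
  · rw [PI_add _ (meas_length fun n => eexp (-(Real.exp a * V)) * eexp (a * n)),
      PI_const_mul _ (eexp_ne_top _)]
    gcongr
    refine (mul_le_mul_right (PI_ideal hV h a) _).trans ?_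
    rw [← eexp_add, neg_add_cancel, eexp_zero]

theorem Xi_convex {Λ : Set α} (hΛ : MeasurableSet Λ) {g : α → α → ℝ}
    (hg : Measurable (Function.uncurry g)) {μ1 μ2 a1 a2 s t : ℝ} (hs : 0 ≤ s) (ht : 0 ≤ t)
    (hst : s + t = 1) (h1 : Xi Λ μ1 g ≤ eexp a1) (h2 : Xi Λ μ2 g ≤ eexp a2) :
    Xi Λ (s * μ1 + t * μ2) g ≤ eexp (s * a1 + t * a2) := by
  have fin : ∀ u a : ℝ, ENNReal.ofReal u * eexp a ≠ ∞ := fun u a =>
    ENNReal.mul_ne_top ENNReal.ofReal_ne_top (eexp_ne_top a)
  refine (PI_mono hΛ subset_rfl (G := fun l => eexp (s * a1 + t * a2) *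
    (ENNReal.ofReal s * eexp (-a1) * wt μ1 g l + ENNReal.ofReal t * eexp (-a2) * wt μ2 g l))
      fun l _ => ?_).trans ?_
  · have := convexOn_exp.2 (mem_univ (-a1 + (μ1 * l.length + D2 g l)))
      (mem_univ (-a2 + (μ2 * l.length + D2 g l))) hs ht hst
    simp only [wt, mul_assoc, ← eexp_add]
    simp only [eexp]
    rw [← ENNReal.ofReal_mul hs, ← ENNReal.ofReal_mul ht,
      ← ENNReal.ofReal_add (by positivity) (by positivity), ← ENNReal.ofReal_mul (by positivity)]
    refine ENNReal.ofReal_le_ofReal (le_trans (le_of_eq ?_)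
      (mul_le_mul_of_nonneg_left this (Real.exp_pos _).le))
    rw [← Real.exp_add]
    congr 1
    simp only [smul_eq_mul]
    linear_combination (-D2 g l) * hst
  · rw [PI_const_mul _ (eexp_ne_top _), PI_add _ fun N => (meas_wt hg μ1 N).const_mul _,
      PI_const_mul _ (fin _ _), PI_const_mul _ (fin _ _)]
    refine (mul_le_mul_right (add_le_add (mul_le_mul_right h1 _) (mul_le_mul_right h2 _)) _).trans ?_
    simp only [mul_assoc, ← eexp_add, neg_add_cancel, eexp_zero, mul_one]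
    rw [← ENNReal.ofReal_add hs ht, hst, ENNReal.ofReal_one, mul_one]

open Classical in
theorem Xi_intra {ι : Type} (T : Finset ι) {Λ : ι → Set α} (hΛ : ∀ i, MeasurableSet (Λ i))
    (hd : Pairwise fun i j => Disjoint (Λ i) (Λ j)) (μ : ℝ) {g : α → α → ℝ}
    (hg : Measurable (Function.uncurry g)) :
    Xi (⋃ i ∈ T, Λ i) μ (fun x y => ∑ i ∈ T, if x ∈ Λ i ∧ y ∈ Λ i then g x y else 0)
      = ∏ i ∈ T, Xi (Λ i) μ g := by
  have hU := Finset.measurableSet_biUnion T fun i _ => hΛ i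
  let F : ι → List α → ℝ≥0∞ := fun i l => eexp (S1 (fun x => if x ∈ Λ i then μ else 0) l +
    D2 (fun x y => if x ∈ Λ i ∧ y ∈ Λ i then g x y else 0) l)
  have congr : ∀ {S : Set α} {F G : List α → ℝ≥0∞}, MeasurableSet S →
      (∀ l, (∀ x ∈ l, x ∈ S) → F l = G l) → PI S F = PI S G := fun hS h =>
    le_antisymm (PI_mono hS subset_rfl fun l hl => (h l hl).le)
      (PI_mono hS subset_rfl fun l hl => (h l hl).ge)
  calc _ = PI (⋃ i ∈ T, Λ i) (fun l => ∏ i ∈ T, F i l) := congr hU fun l hl => ?_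
    _ = ∏ i ∈ T, PI (Λ i) (F i) := PI_biUnion T hΛ hd (fun i N => ?_) fun i j hij l1 x l2 hx => ?_
    _ = _ := Finset.prod_congr rfl fun i _ => congr (hΛ i) fun l hl => ?_
  · rw [← eexp_sum, Finset.sum_add_distrib, ← S1_sum, ← D2_sum, wt, mul_comm, ← nsmul_eq_mul,
      ← S1_const, S1_congr fun x hx => ?_]
    obtain ⟨i, hi, hxi⟩ := by simpa using hl x hx
    rw [Finset.sum_eq_single_of_mem i hi fun j _ hj => if_neg fun h => ?_, if_pos hxi]
    exact disjoint_left.1 (hd hj) h hxi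
  · refine measurable_eexp.comp ((meas_S1 ?_ N).add (meas_D2 ?_ N))
    · exact Measurable.ite (hΛ i) measurable_const measurable_const
    · exact Measurable.ite ((measurable_fst (hΛ i)).inter (measurable_snd (hΛ i))) hg
        measurable_const
  · have : x ∉ Λ i := fun h => disjoint_left.1 (hd hij) h hx
    simp only [F]
    rw [D2_ignore fun y => by simp [this]]
    simp [this]
  · simp only [F, wt]
    rw [mul_comm, ← nsmul_eq_mul, ← S1_const, S1_congr fun x hx => if_pos (hl x hx)]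
    congr 2
    exact S1_congr fun x hx => S1_congr fun y hy => if_pos ⟨hl x hx, hl y hy⟩

open Classical in
omit [MeasureSpace α] [SigmaFinite (volume : Measure α)] in
theorem intra_eq {ι : Type} {T : Finset ι} {Λ : ι → Set α}
    (hd : Pairwise fun i j => Disjoint (Λ i) (Λ j)) (g : α → α → ℝ) {i j : ι} (hi : i ∈ T)
    {x y : α} (hx : x ∈ Λ i) (hy : y ∈ Λ j) :
    (∑ i ∈ T, if x ∈ Λ i ∧ y ∈ Λ i then g x y else 0) = if i = j then g x y else 0 := by
  rw [Finset.sum_eq_single_of_mem i hi fun k _ hk => if_neg fun h =>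
    disjoint_left.1 (hd hk) h.1 hx]
  by_cases h : i = j
  · subst h; simp [hx, hy]
  · rw [if_neg h, if_neg fun h' => disjoint_left.1 (hd h) h'.2 hy]

theorem prod_le_Xi {ι : Type} (T : Finset ι) {Λ : ι → Set α} (hΛ : ∀ i, MeasurableSet (Λ i))
    (hd : Pairwise fun i j => Disjoint (Λ i) (Λ j)) (μ : ℝ) {g : α → α → ℝ}
    (hg : Measurable (Function.uncurry g)) {Ω : Set α} (hΩ : ∀ i ∈ T, Λ i ⊆ Ω)
    (h : ∀ i j, i ≠ j → ∀ x ∈ Λ i, ∀ y ∈ Λ j, 0 ≤ g x y) :
    ∏ i ∈ T, Xi (Λ i) μ g ≤ Xi Ω μ g := by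
  rw [← Xi_intra T hΛ hd μ hg]
  refine Xi_mono (Finset.measurableSet_biUnion T fun i _ => hΛ i) (by simpa using hΩ)
    fun x hx y hy => ?_
  obtain ⟨i, hi, hxi⟩ := by simpa using hx
  obtain ⟨j, -, hyj⟩ := by simpa using hy
  rw [intra_eq hd g hi hxi hyj]
  split_ifs with hij
  exacts [le_rfl, h i j hij x hxi y hyj]

theorem Xi_le_prod {ι : Type} [DecidableEq ι] (T : Finset ι) {c : α → ι}
    (hc : ∀ i, MeasurableSet (c ⁻¹' {i})) (μ : ℝ) {g : α → α → ℝ}
    (hg : Measurable (Function.uncurry g)) {Ω : Set α} (hΩ : MeasurableSet Ω)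
    (h : ∀ x ∈ Ω, c x ∈ T) :
    Xi Ω μ (fun x y => if c x = c y then g x y else 0) ≤ ∏ i ∈ T, Xi (c ⁻¹' {i}) μ g := by
  have hd : Pairwise fun i j => Disjoint (c ⁻¹' {i}) (c ⁻¹' {j}) := fun i j hij =>
    (disjoint_singleton.2 hij).preimage c
  rw [← Xi_intra T hc hd μ hg]
  refine Xi_mono hΩ (fun x hx => by simpa using h x hx) fun x hx y hy => ?_
  rw [intra_eq hd g (h x hx) (i := c x) (j := c y) rfl rfl]
  split_ifs <;> exact le_rfl

end

end Vale.Agent.P171
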