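import Vale.Agent.P171.Defs
import Vale.Agent.P171.Pairs

/-! Overlap kernels in three dimensions. -/

open MeasureTheory Set Metric
open scoped ENNReal

namespace Vale.Agent.P171

noncomputable section

/-- Three dimensional space. -/
abbrev E : Type := EuclideanSpace ℝ (Fin 3)

theorem meas_box {s : Fin 3 → Set ℝ} (hs : ∀ i, MeasurableSet (s i)) :
    MeasurableSet {x : E | ∀ i, x i ∈ s i} := by
  rw [setOf_forall]
  exact MeasurableSet.iInter fun i => (by fun_prop : Measurable fun x : E => x i) (hs i)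

theorem vol_box {s : Fin 3 → Set ℝ} (hs : ∀ i, MeasurableSet (s i)) {a : ℝ} (ha : 0 ≤ a)
    (h : ∀ i, volume (s i) = ENNReal.ofReal a) :
    volume {x : E | ∀ i, x i ∈ s i} = ENNReal.ofReal (a ^ 3) := by
  have := (PiLp.volume_preserving_ofLp (Fin 3)).measure_preimage
    (MeasurableSet.univ_pi hs).nullMeasurableSet
  rw [volume_pi_pi] at this
  simp only [h, Finset.prod_const, Finset.card_univ, Fintype.card_fin] at this
  rw [ENNReal.ofReal_pow ha, ← this]
  congr 1
  ext x
  simp

theorem meas_cube (L : ℝ) : MeasurableSet (cube L) := meas_box fun _ => measurableSet_Icc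

theorem vol_cube {L : ℝ} (h : 0 ≤ L) : volume (cube L) = ENNReal.ofReal (L ^ 3) :=
  vol_box (fun _ => measurableSet_Icc) h fun _ => by simp

/-- The volume of the unit ball. -/
def v1 : ℝ := (volume (ball (0 : E) 1)).toReal

theorem v1_pos : 0 < v1 :=
  ENNReal.toReal_pos (measure_ball_pos _ _ one_pos).ne' measure_ball_lt_top.ne

theorem vol_ball (x : E) {r : ℝ} (h : 0 ≤ r) : volume (ball x r) = ENNReal.ofReal (r ^ 3 * v1) := by
  rw [Measure.addHaar_ball _ _ h, ENNReal.ofReal_mul (by positivity), v1,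
    ENNReal.ofReal_toReal measure_ball_lt_top.ne]
  simp

theorem cs {β : Type} [MeasurableSpace β] (μ : Measure β) {f : β → ℝ≥0∞} (hf : Measurable f) :
    (∫⁻ u, f u ∂μ) ^ 2 ≤ μ univ * ∫⁻ u, f u ^ 2 ∂μ := by
  have := ENNReal.lintegral_mul_le_Lp_mul_Lq μ Real.HolderConjugate.two_two hf.aemeasurable
    (g := fun _ => 1) aemeasurable_const
  simp only [Pi.mul_apply, mul_one, ENNReal.one_rpow, lintegral_const, one_mul,
    ENNReal.rpow_two] at this
  refine (pow_le_pow_left' this 2).trans (le_of_eq ?_)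
  rw [mul_pow, ← ENNReal.rpow_two, ← ENNReal.rpow_two, ← ENNReal.rpow_mul, ← ENNReal.rpow_mul]
  simp [mul_comm]

/-- Overlap volume. -/
def ov (S : E → Set E) (x y : E) : ℝ := (volume (S x ∩ S y)).toReal

/-- Number of sets covering a point. -/
def NS (S : E → Set E) (l : List E) (u : E) : ℝ≥0∞ := S1 (fun x => (S x).indicator 1 u) l

theorem ov_nonneg (S : E → Set E) (x y : E) : 0 ≤ ov S x y := ENNReal.toReal_nonneg

section
variable {S : E → Set E} (hS : ∀ x, MeasurableSet (S x)) {v : ℝ}
  (hv : ∀ x, volume (S x) = ENNReal.ofReal v)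
include hS

theorem meas_NS (l : List E) : Measurable (NS S l) :=
  measurable_S1 (fun x => measurable_one.indicator (hS x)) l

theorem int_NS (l : List E) (Ω : Set E) :
    ∫⁻ u in Ω, NS S l u = S1 (fun x => volume (S x ∩ Ω)) l := by
  simp only [NS]
  rw [lintegral_S1 _ fun x => measurable_one.indicator (hS x)]
  simp only [lintegral_indicator_one (hS _), Measure.restrict_apply (hS _)]

include hv

theorem ofReal_D2 (l : List E) : ENNReal.ofReal (D2 (ov S) l) = ∫⁻ u, NS S l u ^ 2 := by
  have m : ∀ x y, Measurable fun u => (S x).indicator (1 : E → ℝ≥0∞) u * (S y).indicator 1 u :=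
    fun x y => (measurable_one.indicator (hS x)).fun_mul (measurable_one.indicator (hS y))
  simp only [sq, NS, S1_mul_S1, D2]
  rw [lintegral_S1 _ fun x => measurable_S1 (m x) l,
    ofReal_S1 fun x => S1_nonneg fun y _ => ov_nonneg S x y]
  refine S1_congr fun x _ => ?_
  rw [lintegral_S1 _ (m x), ofReal_S1 (ov_nonneg S x)]
  refine S1_congr fun y _ => ?_
  rw [ov, ENNReal.ofReal_toReal (ne_top_of_le_ne_top (hv x ▸ ENNReal.ofReal_ne_top)
    (measure_mono inter_subset_left)), ← lintegral_indicator_one ((hS x).inter (hS y)),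
    inter_indicator_one]
  rfl

theorem len_sq (h0 : 0 ≤ v) {Ω : Set E} {V : ℝ} (hV : 0 ≤ V) (hΩ : volume Ω = ENNReal.ofReal V)
    {l : List E} (hl : ∀ x ∈ l, S x ⊆ Ω) : (l.length * v) ^ 2 ≤ V * D2 (ov S) l := by
  have := cs (volume.restrict Ω) (meas_NS hS l)
  rw [int_NS hS, S1_congr (g := fun _ => ENNReal.ofReal v) fun x hx => by
    rw [inter_eq_left.2 (hl x hx), hv], S1_const, Measure.restrict_apply_univ, hΩ] at this
  have h2 := this.trans (mul_le_mul_right (setLIntegral_le_lintegral _ _) _)
  rw [← ofReal_D2 hS hv, ← ENNReal.ofReal_mul hV, nsmul_eq_mul, ← ENNReal.ofReal_natCast,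
    ← ENNReal.ofReal_mul (by positivity), ← ENNReal.ofReal_pow (by positivity)] at h2
  exact (ENNReal.ofReal_le_ofReal_iff (mul_nonneg hV (D2_nonneg (ov_nonneg S) l))).1 h2

theorem cmp_ov (h0 : 0 ≤ v) {r R : ℝ} (hr : 0 ≤ r) (hR : 0 ≤ R) (hs : ∀ x, S x ⊆ ball x r)
    (l : List E) :
    v ^ 2 * D2 (ov (ball · R)) l ≤ ((R + r) ^ 3 * v1) ^ 2 * D2 (ov S) l := by
  have hb : ∀ x : E, volume (ball x (R + r)) = _ := fun x => vol_ball x (add_nonneg hR hr)
  have mN := meas_NS hS l
  have key : ∀ y, ENNReal.ofReal v ^ 2 * NS (ball · R) l y ^ 2 ≤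
      ENNReal.ofReal ((R + r) ^ 3 * v1) * ∫⁻ u, (ball y (R + r)).indicator (NS S l · ^ 2) u := by
    intro y
    have := cs (volume.restrict (ball y (R + r))) mN
    rw [int_NS hS, Measure.restrict_apply_univ, hb] at this
    rw [lintegral_indicator measurableSet_ball, ← mul_pow]
    refine le_trans (pow_le_pow_left' ?_ 2) this
    rw [NS, ← S1_mul]
    refine S1_mono fun x _ => ?_
    by_cases hy : y ∈ ball x R
    · rw [indicator_of_mem hy, inter_eq_left.2 ((hs x).trans (ball_subset ?_)), hv]
      · simp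
      · linarith [mem_ball'.1 hy]
    · simp [hy]
  have h2 := lintegral_mono (μ := volume) key
  rw [lintegral_const_mul' _ _ (by finiteness), lintegral_const_mul' _ _ (by finiteness),
    lintegral_lintegral_swap, ← ofReal_D2 (fun _ => measurableSet_ball) fun x => vol_ball x hR]
    at h2
  · have e : ∀ u, ∫⁻ y, (ball y (R + r)).indicator (NS S l · ^ 2) u
        = ENNReal.ofReal ((R + r) ^ 3 * v1) * NS S l u ^ 2 := fun u => by
      rw [← hb u, mul_comm, ← setLIntegral_const, ← lintegral_indicator measurableSet_ball]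
      refine lintegral_congr fun y => ?_
      simp only [indicator, mem_ball, dist_comm]
    have p := v1_pos
    simp only [e] at h2
    rw [lintegral_const_mul' _ _ (by finiteness), ← ofReal_D2 hS hv, ← mul_assoc, ← sq,
      ← ENNReal.ofReal_pow h0, ← ENNReal.ofReal_pow (by positivity),
      ← ENNReal.ofReal_mul (by positivity), ← ENNReal.ofReal_mul (by positivity)] at h2
    exact (ENNReal.ofReal_le_ofReal_iff
      (mul_nonneg (by positivity) (D2_nonneg (ov_nonneg S) l))).1 h2
  · refine Measurable.aemeasurable ?_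
    simp only [Function.uncurry_def, indicator, mem_ball]
    exact Measurable.ite (measurableSet_lt (by fun_prop) measurable_const)
      ((mN.comp measurable_snd).pow_const 2) measurable_const

end

/-- The Kac kernel of range `2 R`. -/
def jk (R : ℝ) (x y : E) : ℝ := (2 * (R ^ 3 * v1) ^ 2)⁻¹ * ov (ball · R) x y

/-- A unit vector. -/
def e0 : E := EuclideanSpace.single 0 1

/-- The radial profile of the Kac kernel. -/
def Jk (R r : ℝ) : ℝ := jk R 0 (r • e0)

theorem jk_nonneg (R : ℝ) (x y : E) : 0 ≤ jk R x y :=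
  mul_nonneg (by positivity) (ov_nonneg _ x y)

theorem jk_diag {R : ℝ} (hR : 0 < R) (x : E) : jk R x x = (2 * (R ^ 3 * v1))⁻¹ := by
  have p := v1_pos
  rw [jk, ov, inter_self, vol_ball x hR.le, ENNReal.toReal_ofReal (by positivity)]
  field_simp

theorem jk_le {R : ℝ} (hR : 0 < R) (x y : E) : jk R x y ≤ (2 * (R ^ 3 * v1))⁻¹ := by
  rw [← jk_diag hR x]
  refine mul_le_mul_of_nonneg_left ?_ (by positivity)
  rw [ov, ov, inter_self]
  exact ENNReal.toReal_mono measure_ball_lt_top.ne (measure_mono inter_subset_left)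

theorem jk_zero {R : ℝ} {x y : E} (h : 2 * R ≤ dist x y) : jk R x y = 0 := by
  rw [jk, ov, (ball_disjoint_ball (by linarith)).inter_eq]
  simp

theorem jk_radial (R : ℝ) (x y : E) : jk R x y = Jk R ‖x - y‖ := by
  have hn : ‖y - x‖ = ‖‖x - y‖ • e0‖ := by simp [norm_smul, e0, norm_sub_rev]
  let f := Submodule.reflection (ℝ ∙ (y - x - ‖x - y‖ • e0))ᗮ
  have hf : f (y - x) = ‖x - y‖ • e0 := Submodule.reflection_sub hn
  have mp := f.measurePreserving.comp (measurePreserving_sub_right (volume : Measure E) x)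
  rw [Jk, jk, jk, ov, ov, ← mp.measure_preimage (s := ball 0 R ∩ _)
    (measurableSet_ball.inter measurableSet_ball).nullMeasurableSet, ← hf]
  congr 3
  ext u
  simp only [mem_inter_iff, mem_ball, mem_preimage, Function.comp, dist_eq_norm, ← map_sub,
    sub_zero, LinearIsometryEquiv.norm_map, sub_sub_sub_cancel_right]

theorem Jk_cont (R : ℝ) : Continuous (Jk R) := by
  refine continuous_const.mul ?_
  have e : ∀ r : ℝ, ov (ball · R) 0 (r • e0) =
      ∫ u in ball (0 : E) R, (ball (r • e0) R).indicator (fun _ => (1 : ℝ)) u := fun r => by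
    rw [integral_indicator measurableSet_ball, setIntegral_const, ov, inter_comm, measureReal_def,
      Measure.restrict_apply measurableSet_ball]
    simp
  simp only [e]
  refine continuous_iff_continuousAt.2 fun r0 => continuousAt_of_dominated (bound := fun _ => 1)
    (.of_forall fun r => (measurable_const.indicator measurableSet_ball).aestronglyMeasurable)
    (.of_forall fun r => .of_forall fun u => by
      simpa using norm_indicator_le_norm_self (f := fun _ => (1 : ℝ)) (s := ball (r • e0) R) u)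
    (integrableOn_const measure_ball_lt_top.ne) (ae_restrict_of_ae ?_)
  have hs : ∀ᵐ u : E, u ∉ sphere (r0 • e0) R :=
    measure_eq_zero_iff_ae_notMem.1 (Measure.addHaar_sphere _ _ _)
  filter_upwards [hs] with u hu
  have hc : Continuous fun r : ℝ => dist u (r • e0) := by fun_prop
  rcases lt_or_gt_of_ne (mem_sphere.not.1 hu) with h | h
  · refine Filter.EventuallyEq.continuousAt (y := 1) ?_
    filter_upwards [hc.continuousAt.eventually_lt continuousAt_const h] with r hr
    exact indicator_of_mem (mem_ball.2 hr) _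
  · refine Filter.EventuallyEq.continuousAt (y := 0) ?_
    filter_upwards [continuousAt_const.eventually_lt hc.continuousAt h] with r hr
    exact indicator_of_notMem (mem_ball.not.2 hr.not_gt) _

theorem jk_meas (R : ℝ) : Measurable (Function.uncurry (jk R)) := by
  have := Jk_cont R
  simp only [Function.uncurry_def, jk_radial]
  fun_prop

theorem jk_add (R : ℝ) (x y v : E) : jk R (x + v) (y + v) = jk R x y := by
  simp only [jk_radial, add_sub_add_right_eq_sub]

theorem len_jk {R L : ℝ} (hR : 0 < R) (hL : 0 ≤ L) {l : List E} (hl : ∀ x ∈ l, x ∈ cube L) :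
    (l.length : ℝ) ^ 2 ≤ 2 * (L + 2 * R) ^ 3 * D2 (jk R) l := by
  have p := v1_pos
  have := len_sq (S := (ball · R)) (fun _ => measurableSet_ball) (fun x => vol_ball x hR.le)
    (by positivity) (by positivity) (vol_box (s := fun _ => Icc (-R) (L + R))
      (fun _ => measurableSet_Icc) (a := L + 2 * R) (by positivity) fun _ => by
        rw [Real.volume_Icc]; congr 1; ring) (l := l) fun x hx u hu i => by
    have h1 := (PiLp.dist_apply_le u x i).trans_lt (mem_ball.1 hu)
    rw [Real.dist_eq, abs_lt] at h1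
    have := hl x hx i
    constructor <;> linarith [this.1, this.2]
  unfold jk
  rw [D2_mul]
  refine le_of_mul_le_mul_right ?_ (a := (R ^ 3 * v1) ^ 2) (by positivity)
  rw [← mul_pow]
  refine this.trans (le_of_eq ?_)
  field_simp

theorem cmp_jk {R : ℝ} (hR : 1 ≤ R) (l : List E) : D2 (jk R) l ≤ 64 * D2 (jk 1) l := by
  have p := v1_pos
  have := cmp_ov (S := (ball · 1)) (fun _ => measurableSet_ball) (fun x => vol_ball x zero_le_one)
    (by positivity) zero_le_one (by positivity : 0 ≤ R) (fun _ => subset_rfl) l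
  have h2 : ((R + 1) ^ 3 * v1) ^ 2 ≤ ((R + R) ^ 3 * v1) ^ 2 := by gcongr
  have := this.trans (mul_le_mul_of_nonneg_right h2 (D2_nonneg (ov_nonneg _) l))
  unfold jk
  rw [D2_mul, D2_mul]
  refine le_of_mul_le_mul_left ?_ (a := 2 * (R ^ 3 * v1) ^ 2 * (1 ^ 3 * v1) ^ 2) (by positivity)
  refine le_trans (le_of_eq ?_) (this.trans (le_of_eq ?_)) <;> field_simp
  ring

end

end Vale.Agent.P171
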