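import Mathlib

/-! One-dimensional analysis: approximate kinks survive the mean-field transform. -/

open Set Filter Topology

namespace Vale.Agent.P171

/-- An approximate kink of `P` at `ν`. -/
def Kink (P : ℝ → ℝ) (ν κ η : ℝ) : Prop := ∀ x, 0 ≤ x → κ * x - η ≤ P (ν + x) + P (ν - x) - 2 * P ν

theorem support {P : ℝ → ℝ} (cv : ConvexOn ℝ univ P) {a μ p y : ℝ} (ha : 0 < a)
    (H : ∀ᶠ t in 𝓝[>] (0 : ℝ), P (p + t * (p - y)) - (p + t * (p - y) - μ) ^ 2 / (2 * a)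
      ≤ P p - (p - μ) ^ 2 / (2 * a)) : P p + (p - μ) / a * (y - p) ≤ P y := by
  have t : Tendsto (fun t : ℝ => P y + t * ((p - y) ^ 2 / (2 * a))) (𝓝[>] 0)
      (𝓝 (P y + 0 * ((p - y) ^ 2 / (2 * a)))) :=
    (Continuous.tendsto (by fun_prop) 0).mono_left nhdsWithin_le_nhds
  rw [zero_mul, add_zero] at t
  refine ge_of_tendsto t ?_
  filter_upwards [H, self_mem_nhdsWithin] with t h (ht : 0 < t)
  have c := cv.2 (mem_univ y) (mem_univ (p + t * (p - y))) (show 0 ≤ t / (1 + t) by positivity)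
    (show 0 ≤ 1 / (1 + t) by positivity) (by field_simp; ring)
  simp only [smul_eq_mul] at c
  rw [show t / (1 + t) * y + 1 / (1 + t) * (p + t * (p - y)) = p by field_simp; ring,
    show t / (1 + t) * P y + 1 / (1 + t) * P (p + t * (p - y))
      = (t * P y + P (p + t * (p - y))) / (1 + t) by field_simp, le_div_iff₀ (by positivity)] at c
  have e : (p + t * (p - y) - μ) ^ 2 / (2 * a) = (p - μ) ^ 2 / (2 * a)
      - t * ((p - μ) / a * (y - p)) + t * (t * ((p - y) ^ 2 / (2 * a))) := by field_simp; ring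
  refine le_of_mul_le_mul_left ?_ ht
  linarith

theorem support_Icc {P : ℝ → ℝ} (cv : ConvexOn ℝ univ P) {a μ p y c d : ℝ} (ha : 0 < a)
    (hp : p ∈ Icc c d) (h : c < p ∧ p ≤ y ∨ y ≤ p ∧ p < d)
    (H : ∀ z ∈ Icc c d, P z - (z - μ) ^ 2 / (2 * a) ≤ P p - (p - μ) ^ 2 / (2 * a)) :
    P p + (p - μ) / a * (y - p) ≤ P y := by
  have t : Tendsto (fun t : ℝ => p + t * (p - y)) (𝓝[>] 0) (𝓝 (p + 0 * (p - y))) :=
    (Continuous.tendsto (by fun_prop) 0).mono_left nhdsWithin_le_nhds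
  rw [zero_mul, add_zero] at t
  refine support cv ha ?_
  rcases h with h | h
  · filter_upwards [t.eventually (lt_mem_nhds h.1), self_mem_nhdsWithin] with t h1 (ht : 0 < t)
    exact H _ ⟨h1.le, by nlinarith [hp.2, h.2]⟩
  · filter_upwards [t.eventually (gt_mem_nhds h.2), self_mem_nhdsWithin] with t h1 (ht : 0 < t)
    exact H _ ⟨by nlinarith [hp.1, h.1], h1.le⟩

theorem gap_aux {a κ κ' η μ ν p P P0 P1 P2 : ℝ} (ha : 0 < a) (hκ' : κ' ^ 2 ≤ κ ^ 2 - 4 * η / a)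
    (s : P + (p - μ) / a * (ν - p) ≤ P0) (k : κ * (a * κ / 2) - η ≤ P1 + P2 - 2 * P0)
    (m1 : P1 - (ν + a * κ / 2 - μ) ^ 2 / (2 * a) ≤ P - (p - μ) ^ 2 / (2 * a))
    (m2 : P2 - (ν - a * κ / 2 - μ) ^ 2 / (2 * a) ≤ P - (p - μ) ^ 2 / (2 * a)) :
    (a * κ') ^ 2 ≤ 4 * (p - ν) ^ 2 := by
  have e4 : a * (κ ^ 2 - 4 * η / a) = a * κ ^ 2 - 4 * η := by field_simp
  have e5 : (ν + a * κ / 2 - μ) ^ 2 / (2 * a) + (ν - a * κ / 2 - μ) ^ 2 / (2 * a)
    - 2 * ((p - μ) ^ 2 / (2 * a)) - 2 * ((p - μ) / a * (ν - p))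
    = (p - ν) ^ 2 / a + a * κ ^ 2 / 4 := by field_simp; ring
  have h1 := mul_le_mul_of_nonneg_left hκ' ha.le
  have : a * κ' ^ 2 / 4 ≤ (p - ν) ^ 2 / a := by linarith
  rw [div_le_div_iff₀ (by positivity) ha] at this
  linarith

theorem kink_step {P Q : ℝ → ℝ} (cv : ConvexOn ℝ univ P) (mono : Monotone P) (nn : ∀ y, 0 ≤ P y)
    {a D ν κ η κ' e : ℝ} (ha : 0 < a) (hκ : 0 < κ) (hD : a * κ ≤ D) (K : Kink P ν κ η)
    (hκ' : κ' ^ 2 ≤ κ ^ 2 - 4 * η / a) (lo : ∀ μ t, P (μ + t) - t ^ 2 / (2 * a) ≤ Q μ)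
    (up : ∀ μ ≤ ν, ∀ m, (∀ t ∈ Icc 0 D, P (μ + t) - t ^ 2 / (2 * a) ≤ m) → Q μ ≤ m + e) :
    ∃ ν' ≤ ν, Kink Q ν' κ' (2 * e) := by
  have cont : Continuous P := continuousOn_univ.1 (cv.continuousOn isOpen_univ)
  have aκ := mul_pos ha hκ
  have η0 : 0 ≤ η := by simpa [two_mul] using K 0 le_rfl
  obtain ⟨B, hB1, hB2, hB3⟩ : ∃ B, 1 ≤ B ∧ a * κ ≤ B ∧ 2 * a * P (ν + D) ≤ B :=
    have := mul_nonneg ha.le (nn (ν + D))
    ⟨1 + a * κ + 2 * a * P (ν + D), by linarith, by linarith, by linarith⟩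
  let f : ℝ → ℝ → ℝ := fun μ z => P z - (z - μ) ^ 2 / (2 * a)
  have fc : Continuous (Function.uncurry f) := by unfold Function.uncurry; fun_prop
  have ex : ∀ μ {c d : ℝ}, c ≤ d → ∃ z ∈ Icc c d, sSup (f μ '' Icc c d) = f μ z ∧
      ∀ y ∈ Icc c d, f μ y ≤ f μ z := fun μ c d h =>
    isCompact_Icc.exists_sSup_image_eq_and_ge (nonempty_Icc.2 h) (by fun_prop)
  have h1 : ν ≤ ν + D := by linarith
  have h2 : ν - B - 1 ≤ ν := by linarith
  obtain ⟨μ, hμ, hc⟩ := (isPreconnected_Icc (a := ν - B) (b := ν)).intermediate_value₂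
    (a := ν - B) (b := ν) ⟨le_rfl, by linarith⟩ ⟨by linarith, le_rfl⟩
    ((isCompact_Icc (a := ν) (b := ν + D)).continuous_sSup fc).continuousOn
    ((isCompact_Icc (a := ν - B - 1) (b := ν)).continuous_sSup fc).continuousOn
    (by
      obtain ⟨p, hp, e1, -⟩ := ex (ν - B) h1
      obtain ⟨q, -, e2, hq⟩ := ex (ν - B) h2
      refine e1.trans_le (le_trans ?_ e2.ge)
      refine le_trans ?_ (hq (ν - B) ⟨by linarith, by linarith⟩)
      have : P (ν + D) ≤ (p - (ν - B)) ^ 2 / (2 * a) := by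
        rw [le_div_iff₀ (by positivity)]
        nlinarith [hp.1]
      simp only [f]
      rw [sub_self]
      norm_num
      linarith [mono hp.2, nn (ν - B)])
    (by
      obtain ⟨p, -, e1, hp⟩ := ex ν h1
      obtain ⟨q, hq, e2, -⟩ := ex ν h2
      refine e2.trans_le (le_trans ?_ e1.ge)
      refine le_trans ?_ (hp ν ⟨le_rfl, h1⟩)
      have : 0 ≤ (q - ν) ^ 2 / (2 * a) := by positivity
      simp only [f]
      rw [sub_self]
      norm_num
      linarith [mono hq.2])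
  obtain ⟨p, hp, e1, mp⟩ := ex μ h1
  obtain ⟨q, hq, e2, mq⟩ := ex μ h2
  simp only [e1, e2] at hc
  have Mp : ∀ z ∈ Icc (ν - B - 1) (ν + D), f μ z ≤ f μ p := fun z hz =>
    (le_total z ν).elim (fun h => hc ▸ mq z ⟨hz.1, h⟩) fun h => mp z ⟨h, hz.2⟩
  have Mq : ∀ z ∈ Icc (ν - B - 1) (ν + D), f μ z ≤ f μ q := hc ▸ Mp
  have hp' : p ∈ Icc (ν - B - 1) (ν + D) := ⟨h2.trans hp.1, hp.2⟩
  have hq' : q ∈ Icc (ν - B - 1) (ν + D) := ⟨hq.1, hq.2.trans h1⟩
  have qμ : μ ≤ q := by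
    by_contra h
    push Not at h
    have h3 := mq μ ⟨by linarith [hμ.1], hμ.2⟩
    have : 0 < (q - μ) ^ 2 / (2 * a) := div_pos (sq_pos_of_neg (by linarith)) (by positivity)
    simp only [f] at h3
    rw [sub_self] at h3
    norm_num at h3
    linarith [mono h.le]
  have gap : a * κ' ≤ p - q := by
    have pq : 0 ≤ p - q := by linarith [hp.1, hq.2]
    rcases hp.2.lt_or_eq with h | h
    · have s1 := support_Icc cv ha hp' (y := ν) (.inr ⟨hp.1, h⟩) Mp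
      have s2 := support_Icc cv ha hq' (y := ν) (.inl ⟨by linarith [hμ.1], hq.2⟩) Mq
      have k := K (a * κ / 2) (by positivity)
      have i1 : ν + a * κ / 2 ∈ Icc (ν - B - 1) (ν + D) := ⟨by linarith, by linarith⟩
      have i2 : ν - a * κ / 2 ∈ Icc (ν - B - 1) (ν + D) := ⟨by linarith, by linarith⟩
      have u1 := gap_aux ha hκ' s1 k (Mp _ i1) (Mp _ i2)
      have u2 := gap_aux ha hκ' s2 k (Mq _ i1) (Mq _ i2)
      refine (abs_le_of_sq_le_sq' ?_ pq).2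
      have u3 := hp.1
      have u4 := hq.2
      clear * - u1 u2 u3 u4
      rcases le_total (p - ν) (ν - q) with h | h <;> nlinarith
    · have : κ' ≤ κ := (abs_le_of_sq_le_sq' (hκ'.trans (sub_le_self _ (by positivity))) hκ.le).2
      nlinarith [hq.2]
  refine ⟨μ, hμ.2, fun x hx => ?_⟩
  have s1 := support_Icc cv ha hp' (y := p + x) (.inl ⟨by linarith [hp.1], by linarith⟩) Mp
  have s2 := support_Icc cv ha hq' (y := q - x) (.inr ⟨by linarith, by linarith [hq.2]⟩) Mq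
  have l1 := lo (μ + x) (p - μ)
  have l2 := lo (μ - x) (q - μ)
  have u := up μ hμ.2 (f μ p) fun t ht => by
    simpa [f] using Mp (μ + t) ⟨by linarith [hμ.1, ht.1], by linarith [hμ.2, ht.2]⟩
  rw [show μ + x + (p - μ) = p + x by ring] at l1
  rw [show μ - x + (q - μ) = q - x by ring] at l2
  simp only [f] at u hc
  have e : (p - μ) / a * (p + x - p) + (q - μ) / a * (q - x - q) = (p - q) / a * x := by ring
  have : κ' * x ≤ (p - q) / a * x := by
    gcongr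
    rwa [le_div_iff₀' ha]
  linarith

theorem kink_limit {P : ℝ → ℝ} (cont : Continuous P) (mono : Monotone P)
    (le : ∀ y, P y ≤ Real.exp y) {ν η : ℕ → ℝ} {κ μ0 : ℝ} (hκ : 0 < κ) (hν : ∀ k, ν k ≤ μ0)
    (hη : Tendsto η atTop (𝓝 0)) (K : ∀ k, Kink P (ν k) κ (η k)) (nn : ∀ y, 0 ≤ P y) :
    ∃ x, ¬DifferentiableAt ℝ P x := by
  obtain ⟨H, hH⟩ := hη.bddAbove_range
  have hH' : ∀ k, η k ≤ H := fun k => hH ⟨k, rfl⟩
  have η0 : 0 ≤ η 0 := by simpa [two_mul] using K 0 0 le_rfl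
  have X0 : 0 ≤ (H + 1) / κ := div_nonneg (by linarith [hH' 0]) hκ.le
  have lo : ∀ k, ν k ∈ Icc (-((H + 1) / κ)) μ0 := fun k => ⟨by
    have h1 := K k _ X0
    rw [mul_div_cancel₀ _ hκ.ne'] at h1
    have h2 : 1 ≤ Real.exp (ν k + (H + 1) / κ) := by
      linarith [le (ν k + (H + 1) / κ), mono (sub_le_self (ν k) X0), nn (ν k), hH' k]
    linarith [Real.one_le_exp_iff.1 h2], hν k⟩
  obtain ⟨x, -, φ, hφ, hx⟩ := isCompact_Icc.tendsto_subseq lo
  refine ⟨x, fun hd => ?_⟩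
  have K0 : Kink P x κ 0 := fun t ht =>
    le_of_tendsto_of_tendsto' ((hη.comp hφ.tendsto_atTop).const_sub (κ * t))
      (((by fun_prop : Continuous fun y => P (y + t) + P (y - t) - 2 * P y).tendsto x).comp hx)
      fun k => K (φ k) t ht
  have d1 : HasDerivAt (fun t => P (x + t)) (deriv P x) 0 :=
    HasDerivAt.comp_const_add x 0 (by simpa using hd.hasDerivAt)
  have d2 : HasDerivAt (fun t => P (x - t)) (-deriv P x) 0 :=
    HasDerivAt.comp_const_sub x 0 (by simpa using hd.hasDerivAt)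
  have := (d1.fun_add d2).tendsto_slope_zero_right
  rw [add_neg_cancel] at this
  refine (ge_of_tendsto this ?_).not_gt hκ
  filter_upwards [self_mem_nhdsWithin] with t (ht : 0 < t)
  have := K0 t ht.le
  simp only [zero_add, add_zero, sub_zero, smul_eq_mul] at this ⊢
  rw [le_inv_mul_iff₀ ht]
  linarith

end Vale.Agent.P171
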