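import Vale.Agent.P171.Step
import Vale.Agent.P171.Kink

/-! The multiscale construction. -/

open MeasureTheory Set Metric Filter Topology
open scoped ENNReal NNReal

namespace Vale.Agent.P171

noncomputable section

/-- Finite sums of Kac kernels. -/
def psi (a R : ℕ → ℝ) (k : ℕ) (x y : E) : ℝ := ∑ j ∈ Finset.range k, a j * jk (R j) x y

/-- The radial profile of the full attraction. -/
def Psi (a R : ℕ → ℝ) (r : ℝ) : ℝ := ∑' j, a j * Jk (R j) r

theorem psi_succ (a R : ℕ → ℝ) (k : ℕ) : psi a R (k + 1) = more (psi a R k) (a k) (R k) := by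
  funext x y
  simp only [psi, more, Finset.sum_range_succ]

theorem D2_psi_zero (a R : ℕ → ℝ) (l : List E) : D2 (psi a R 0) l = 0 :=
  (D2_const 0 l).trans (zero_mul _)

theorem base_kink {A : ℝ} (hA : 0 ≤ A) (a R : ℕ → ℝ) (G : Good (ham A (psi a R 0))) :
    Kink (pr (ham A (psi a R 0))) (A * (2 * v1)⁻¹) (1 / 27) 2 := fun x _ => by
  have d : ∀ y, jk 1 y y = (2 * v1)⁻¹ := fun y => by simpa using jk_diag one_pos y
  have h1 : pr (ham A (psi a R 0)) (A * (2 * v1)⁻¹) ≤ Real.exp 0 :=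
    G.pr_le_of (c := 0) (d := 0) one_pos fun j => by
      rw [zero_add, add_zero]
      refine Xi_ideal (by positivity) fun l => ?_
      have := mul_le_mul_of_nonneg_left (D2_diag (jk_nonneg 1) l) hA
      simp only [d, S1_const, nsmul_eq_mul] at this
      rw [D2_ham, D2_psi_zero]
      linarith
  have h2 : x ≤ lg (ham A (psi a R 0)) (A * (2 * v1)⁻¹ + x) 1 := by
    refine G.le_lg zero_le_one (le_trans (le_of_eq ?_) (le_PI_one _ _))
    simp [wt, D2, ham, psi, d, vol_cube]
  have h3 := G.lg_le_pr (μ := A * (2 * v1)⁻¹ + x) zero_le_one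
  rw [Real.exp_zero] at h1
  linarith [G.pr_nonneg (A * (2 * v1)⁻¹ - x)]

section
variable {a R : ℕ → ℝ} (ha : ∀ k, 0 < a k) (hR : ∀ k, 1 ≤ R k) (hs : Summable a)
include ha hR

theorem adm_psi (k : ℕ) : Adm (psi a R k) (64 * ∑ j ∈ Finset.range k, a j) := by
  induction k with
  | zero => exact ⟨measurable_const, fun _ _ _ => rfl, fun _ _ => le_rfl, by simp,
      fun l => by simp [D2_psi_zero]⟩
  | succ k ih =>
    rw [psi_succ, Finset.sum_range_succ, mul_add]
    exact ih.more (ha k).le (hR k)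

theorem Jk_bound (k : ℕ) (r : ℝ) : ‖a k * Jk (R k) r‖ ≤ a k * (2 * v1)⁻¹ := by
  have p := v1_pos
  have := ha k
  rw [Jk, Real.norm_of_nonneg (mul_nonneg this.le (jk_nonneg ..))]
  refine mul_le_mul_of_nonneg_left ((jk_le (by linarith [hR k]) _ _).trans ?_) this.le
  gcongr
  exact le_mul_of_one_le_left p.le (one_le_pow₀ (hR k))

include hs

theorem Psi_cont : Continuous (Psi a R) :=
  continuous_tsum (fun _ => continuous_const.mul (Jk_cont _)) (hs.mul_right _) (Jk_bound ha hR)

theorem Psi_sum (x y : E) : HasSum (fun k => a k * jk (R k) x y) (Psi a R ‖x - y‖) := by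
  simp only [jk_radial]
  exact (Summable.of_norm_bounded (hs.mul_right _) fun k => Jk_bound ha hR k _).hasSum

theorem Psi_tail (k : ℕ) (l : List E) : D2 (fun x y => Psi a R ‖x - y‖) l ≤
    D2 (psi a R k) l + 64 * (∑' j, a (j + k)) * D2 (jk 1) l := by
  have := (hasSum_nat_add_iff' k).2 (D2_hasSum (Psi_sum ha hR hs) l)
  rw [← D2_sum] at this
  have h2 := hasSum_le (fun j => ?_) this
    ((((summable_nat_add_iff k).2 hs).hasSum.mul_left 64).mul_right (D2 (jk 1) l))
  · exact sub_le_iff_le_add'.1 h2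
  · rw [D2_mul]
    nlinarith [cmp_jk (hR (j + k)) l, ha (j + k)]

theorem adm_Psi : Adm (fun x y => Psi a R ‖x - y‖) (64 * ∑' j, a j) where
  meas := by
    have := Psi_cont ha hR hs
    unfold Function.uncurry
    fun_prop
  inv x y v := by simp only [add_sub_add_right_eq_sub]
  nonneg x y := (Psi_sum ha hR hs x y).nonneg fun k => mul_nonneg (ha k).le (jk_nonneg ..)
  w0 := mul_nonneg (by norm_num) (tsum_nonneg fun k => (ha k).le)
  le l := by
    have := Psi_tail ha hR hs 0 l
    rwa [D2_psi_zero, zero_add] at this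

theorem limit_kink {A μ0 κ : ℝ} {η : ℕ → ℝ} (hA : 64 * ∑' j, a j + 1 ≤ A) (hκ : 0 < κ)
    (hη : Tendsto η atTop (𝓝 0)) (K : ∀ k, ∃ ν ≤ μ0, Kink (pr (ham A (psi a R k))) ν κ (η k)) :
    ∃ x, ¬DifferentiableAt ℝ (pr (ham A fun x y => Psi a R ‖x - y‖)) x := by
  choose ν hν K using K
  have G := (adm_Psi ha hR hs).good (A := A) (by linarith)
  have hw : ∀ k, 64 * ∑ j ∈ Finset.range k, a j ≤ A := fun k => by
    linarith [hs.sum_le_tsum (Finset.range k) fun j _ => (ha j).le]
  refine kink_limit (η := fun k => η k + 2 * (64 * (∑' j, a (j + k)) * Real.exp μ0)) G.pr_cont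
    G.pr_mono G.pr_le hκ hν ?_ (fun k x hx => ?_) G.pr_nonneg
  · simpa using hη.add ((((tendsto_sum_nat_add a).const_mul 64).mul_const _).const_mul 2)
  have m : ∀ y, pr (ham A (psi a R k)) y ≤ 0 + pr (ham A fun x y => Psi a R ‖x - y‖) y := fun y =>
    ((adm_psi ha hR k).good (hw k)).pr_le_add G (c := 0) (d := 0) fun L _ => by
      rw [zero_mul, add_zero, eexp_zero, one_mul]
      exact Xi_mono (meas_cube L) subset_rfl fun x _ y _ => add_le_add (sum_le_hasSum _
        (fun j _ => mul_nonneg (ha j).le (jk_nonneg ..)) (Psi_sum ha hR hs x y)) le_rfl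
  have := (adm_psi ha hR k).tail (adm_Psi ha hR hs) (hw k) hA
    (mul_nonneg (by norm_num) (tsum_nonneg fun j => (ha _).le)) (hν k) (Psi_tail ha hR hs k)
  linarith [K k x hx, m (ν k + x), m (ν k - x)]

end

theorem exists_seq : ∃ (a R : ℕ → ℝ) (A : ℝ), (∀ k, 0 < a k) ∧ (∀ k, 1 ≤ R k) ∧ Summable a ∧
    Summable (fun k => a k * R k ^ (1 / 36 : ℝ)) ∧ 64 * ∑' j, a j + 1 ≤ A ∧
    ∃ x, ¬DifferentiableAt ℝ (pr (ham A fun x y => Psi a R ‖x - y‖)) x := by
  obtain ⟨C, C0, up⟩ := upper (10 ^ 9) (10 ^ 9 * (2 * v1)⁻¹)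
  obtain ⟨q0, hq0⟩ := exists_nat_ge (46656 * C + 2)
  let q : ℕ → ℕ := fun k => q0 ^ 3 ^ k
  have q2 : 2 ≤ q0 := by exact_mod_cast (show (2 : ℝ) ≤ q0 by linarith)
  have qs : ∀ k, q (k + 1) = q k ^ 3 := fun k => by simp only [q, pow_succ 3, pow_mul]
  have qk : ∀ k, 2 ^ k * 2 ≤ q k := fun k => by
    rw [← pow_succ]
    exact (Nat.pow_le_pow_right two_pos (Nat.lt_pow_self (by norm_num))).trans
      (Nat.pow_le_pow_left q2 _)
  have qk' : ∀ k, (2 : ℝ) ≤ q k := fun k => by
    exact_mod_cast (Nat.le_mul_of_pos_left 2 (by positivity)).trans (qk k)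
  have qp : ∀ k, (0 : ℝ) < q k := fun k => two_pos.trans_le (qk' k)
  have q1 : ∀ k, (1 : ℝ) ≤ q k := fun k => one_le_two.trans (qk' k)
  have qi : ∀ k, 1 / (q k : ℝ) ≤ (1 / 2) ^ k := fun k => by
    rw [one_div_pow]
    gcongr
    exact_mod_cast (Nat.le_mul_of_pos_right _ two_pos).trans (qk k)
  let a : ℕ → ℝ := fun k => Nat.casesOn k 23328 fun k => 1 / (q k : ℝ) ^ 2
  let R : ℕ → ℝ := fun k => ((q k ^ 4 : ℕ) : ℝ) ^ 3
  let η : ℕ → ℝ := fun k => Nat.casesOn k 2 fun k => 2 * (C / (q k ^ 4 : ℕ))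
  let u : ℕ → ℝ := fun k => Nat.casesOn k (1 / 729) fun k => 1 / 1458 + 16 * C / (q k : ℝ) ^ 2
  have ai : ∀ k, a (k + 1) ≤ (1 / 2) ^ k := fun k =>
    (one_div_le_one_div_of_le (qp k) (le_self_pow₀ (q1 k) two_ne_zero)).trans (qi k)
  have ha : ∀ k, 0 < a k := fun k => by
    cases k with
    | zero => norm_num [a]
    | succ k => exact one_div_pos.2 (pow_pos (qp k) 2)
  have hR : ∀ k, 1 ≤ R k := fun k => one_le_pow₀ (by push_cast; exact one_le_pow₀ (q1 k))
  have hs1 : Summable fun k => a (k + 1) :=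
    summable_geometric_two.of_nonneg_of_le (fun k => (ha (k + 1)).le) ai
  have hs : Summable a := (summable_nat_add_iff 1).1 hs1
  have hS : ∑' k, a k ≤ 23330 := by
    have := hs1.tsum_le_tsum ai summable_geometric_two
    rw [hs.tsum_eq_zero_add, show a 0 = 23328 from rfl]
    linarith [tsum_geometric_two]
  have hu : ∀ k, u (k + 1) ≤ u k - 4 * η k / a k := fun k => by
    cases k with
    | zero =>
      have : 16 * C / (q 0 : ℝ) ^ 2 ≤ 1 / 2916 := by
        rw [div_le_iff₀ (pow_pos (qp 0) 2), show q 0 = q0 by simp [q]]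
        nlinarith
      show 1 / 1458 + 16 * C / (q 0 : ℝ) ^ 2 ≤ 1 / 729 - 4 * 2 / 23328
      linarith
    | succ k =>
      have := qp k
      have h1 : 16 * C / (q (k + 1) : ℝ) ^ 2 ≤ 16 * C / (2 * (q k : ℝ) ^ 2) := by
        gcongr
        rw [qs]
        push_cast
        have := one_le_pow₀ (n := 3) (q1 k)
        nlinarith [qk' k, mul_le_mul (qk' k) this zero_le_one (qp k).le, pow_pos (qp k) 2]
      have e : 4 * η (k + 1) / a (k + 1) = 16 * C / (2 * (q k : ℝ) ^ 2) := by
        simp only [η, a]; push_cast; field_simp; ring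
      have e2 : 16 * C / (q k : ℝ) ^ 2 = 2 * (16 * C / (2 * (q k : ℝ) ^ 2)) := by field_simp
      rw [e]
      simp only [u]
      linarith
  have u0 : ∀ k, 1 / 1458 ≤ u k := fun k => by
    cases k with
    | zero => norm_num [u]
    | succ k => exact le_add_of_nonneg_right (by positivity)
  have η0 : ∀ k, 0 ≤ η k := fun k => by
    cases k with
    | zero => exact zero_le_two
    | succ k => simp only [η]; positivity
  have u1 : ∀ k, u k ≤ 1 := fun k => by
    induction k with
    | zero => norm_num [u]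
    | succ k ih =>
      exact ((hu k).trans (sub_le_self _ (div_nonneg (by linarith [η0 k]) (ha k).le))).trans ih
  have hw : ∀ k, ∑ j ∈ Finset.range k, a j ≤ 23330 := fun k =>
    (hs.sum_le_tsum (Finset.range k) fun j _ => (ha j).le).trans hS
  have hr : ∀ k x y, 2 * ((q k ^ 4 : ℕ) : ℝ) ≤ dist x y → psi a R k x y = 0 := fun k x y h => by
    induction k with
    | zero => rfl
    | succ k ih =>
      have e : ((q (k + 1) ^ 4 : ℕ) : ℝ) = R k := by simp only [R, qs]; push_cast; ring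
      rw [e] at h
      rw [psi_succ, more, jk_zero h, ih (le_trans ?_ h), mul_zero, add_zero]
      gcongr
      exact le_self_pow₀ (by push_cast; exact one_le_pow₀ (q1 k)) three_ne_zero
  have key : ∀ k, ∃ ν ≤ 10 ^ 9 * (2 * v1)⁻¹,
      Kink (pr (ham (10 ^ 9) (psi a R k))) ν √(u k) (η k) := by
    intro k
    induction k with
    | zero =>
      refine ⟨_, le_rfl, ?_⟩
      rw [show √(u 0) = 1 / 27 by
        rw [Real.sqrt_eq_iff_mul_self_eq (by norm_num [u]) (by norm_num)]; norm_num [u]]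
      exact base_kink (by norm_num) a R ((adm_psi ha hR 0).good (by norm_num))
    | succ k ih =>
      obtain ⟨ν, hν, K⟩ := ih
      have h := adm_psi ha hR k
      have ak := (hs.le_tsum k fun j _ => (ha j).le).trans hS
      have G := h.good (A := 10 ^ 9) (by linarith [hw k])
      obtain ⟨ν', h1, h2⟩ := kink_step (κ' := √(u (k + 1))) G.pr_convex G.pr_mono G.pr_nonneg
        (ha k) (Real.sqrt_pos.2 (by linarith [u0 k])) (D := a k * (54 * Real.exp _ + 1))
        (mul_le_mul_of_nonneg_left ((Real.sqrt_le_one.2 (u1 k)).trans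
          (le_add_of_nonneg_left (by positivity))) (ha k).le) K
        (by rw [Real.sq_sqrt (by linarith [u0 (k + 1)]), Real.sq_sqrt (by linarith [u0 k])]
            exact hu k)
        (h.lower (ha k) (hR k) (by linarith [hw k]))
        fun μ hμ m hm => up h (ha k) (by linarith [hw k]) (hμ.trans hν)
          (Nat.one_le_pow _ _ (by exact_mod_cast qp k)) (hr k) hm
      exact ⟨ν', h1.trans hν, psi_succ a R k ▸ h2⟩
  refine ⟨a, R, 10 ^ 9, ha, hR, hs, ?_, by linarith, limit_kink ha hR hs (by linarith)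
    (κ := √(1 / 1458)) (by positivity) (η := η) (μ0 := 10 ^ 9 * (2 * v1)⁻¹) ?_ fun k => ?_⟩
  · refine (summable_nat_add_iff 1).1 (summable_geometric_two.of_nonneg_of_le
      (fun k => mul_nonneg (ha (k + 1)).le (by positivity)) fun k => le_trans (le_of_eq ?_) (qi k))
    have e : R (k + 1) = (q k : ℝ) ^ (36 : ℕ) := by simp only [R, qs]; push_cast; ring
    have := qp k
    rw [e, ← Real.rpow_natCast, ← Real.rpow_mul this.le,
      show ((36 : ℕ) : ℝ) * (1 / 36) = 1 by norm_num, Real.rpow_one]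
    simp only [a]
    field_simp
  · refine (tendsto_add_atTop_iff_nat 1).1 (squeeze_zero (fun k => η0 (k + 1)) (g := fun k =>
      2 * (C * (1 / 2) ^ k)) (fun k => ?_) ?_)
    · simp only [η, div_eq_mul_one_div C]
      gcongr
      push_cast
      exact (one_div_le_one_div_of_le (qp k) (le_self_pow₀ (q1 k) four_ne_zero)).trans (qi k)
    · simpa using ((tendsto_pow_atTop_nhds_zero_of_lt_one (r := (1 / 2 : ℝ)) (by norm_num)
        (by norm_num)).const_mul C).const_mul 2
  · obtain ⟨ν, hν, K⟩ := key k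
    exact ⟨ν, hν, fun x hx => le_trans (by gcongr; exact u0 k) (K x hx)⟩

end

end Vale.Agent.P171
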