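import Mathlib

/-! The Lebesgue-Poisson integral of functionals of finite lists of points. -/

open MeasureTheory Set
open scoped ENNReal

namespace Vale.Agent.P171

noncomputable section

variable {α : Type} [MeasureSpace α]

/-- A functional of lists is measurable. -/
def Meas {β : Type} [MeasurableSpace β] (F : List α → β) : Prop :=
  ∀ N, Measurable fun x : Fin N → α => F (List.ofFn x)

/-- Adding one point. -/
def Tp (Λ : Set α) (F : List α → ℝ≥0∞) (l : List α) : ℝ≥0∞ := ∫⁻ x in Λ, F (x :: l)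

/-- The Lebesgue-Poisson integral. -/
def PI (Λ : Set α) (F : List α → ℝ≥0∞) : ℝ≥0∞ := ∑' N, (Tp Λ)^[N] F [] / N.factorial

omit [MeasureSpace α] in
theorem measurable_cons' [MeasurableSpace α] (N : ℕ) :
    Measurable fun p : (Fin N → α) × α => (Fin.cons p.2 p.1 : Fin (N + 1) → α) := by
  refine measurable_pi_iff.2 fun i => ?_
  refine Fin.cases ?_ (fun i => ?_) i
  · simpa using measurable_snd
  · simp only [Fin.cons_succ]
    fun_prop

theorem Meas.cons2 {β : Type} [MeasurableSpace β] {F : List α → β} (h : Meas F) (N : ℕ) :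
    Measurable fun p : (Fin N → α) × α => F (p.2 :: List.ofFn p.1) := by
  simpa [Function.comp_def] using (h (N + 1)).comp (measurable_cons' N)

theorem Meas.cons {β : Type} [MeasurableSpace β] {F : List α → β} (h : Meas F) (l : List α) :
    Measurable fun x => F (x :: l) := by
  simpa [Function.comp_def] using
    (h.cons2 l.length).comp (measurable_prodMk_left (x := l.get))

theorem Meas.comp {β γ : Type} [MeasurableSpace β] [MeasurableSpace γ] {F : List α → β}
    (h : Meas F) {g : β → γ} (hg : Measurable g) : Meas fun l => g (F l) :=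
  fun N => hg.comp (h N)

theorem meas_length {β : Type} [MeasurableSpace β] (Γ : ℕ → β) :
    Meas fun l : List α => Γ l.length := fun N => by simp

theorem Meas.mul {F G : List α → ℝ≥0∞} (hF : Meas F) (hG : Meas G) : Meas fun l => F l * G l :=
  fun N => (hF N).mul (hG N)

theorem Meas.prod {ι : Type} (s : Finset ι) {F : ι → List α → ℝ≥0∞} (h : ∀ i ∈ s, Meas (F i)) :
    Meas fun l => ∏ i ∈ s, F i l :=
  fun N => Finset.measurable_prod s fun i hi => h i hi N

variable [SigmaFinite (volume : Measure α)]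

theorem Meas.tp {F : List α → ℝ≥0∞} (h : Meas F) (Λ : Set α) : Meas (Tp Λ F) :=
  fun N => (h.cons2 N).lintegral_prod_right'

theorem Meas.iter {F : List α → ℝ≥0∞} (h : Meas F) (Λ : Set α) (N : ℕ) : Meas ((Tp Λ)^[N] F) := by
  induction N with
  | zero => exact h
  | succ n ih => rw [Function.iterate_succ_apply']; exact ih.tp Λ

omit [SigmaFinite (volume : Measure α)] in
theorem iter_succ (Λ : Set α) (F : List α → ℝ≥0∞) (N : ℕ) (l : List α) :
    (Tp Λ)^[N + 1] F l = ∫⁻ x in Λ, (Tp Λ)^[N] F (x :: l) := by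
  rw [Function.iterate_succ_apply']; rfl

omit [SigmaFinite (volume : Measure α)] in
theorem iter_mono {Λ Λ' : Set α} (hΛ : MeasurableSet Λ) (hs : Λ ⊆ Λ') {F G : List α → ℝ≥0∞}
    (h : ∀ l, (∀ x ∈ l, x ∈ Λ) → F l ≤ G l) (N : ℕ) :
    ∀ l, (∀ x ∈ l, x ∈ Λ) → (Tp Λ)^[N] F l ≤ (Tp Λ')^[N] G l := by
  induction N with
  | zero => exact h
  | succ n ih =>
    intro l hl
    rw [iter_succ, iter_succ]
    refine le_trans (setLIntegral_mono' hΛ fun x hx => ih _ ?_) (lintegral_mono_set hs)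
    simpa [hx] using hl

omit [SigmaFinite (volume : Measure α)] in
theorem PI_mono {Λ Λ' : Set α} (hΛ : MeasurableSet Λ) (hs : Λ ⊆ Λ') {F G : List α → ℝ≥0∞}
    (h : ∀ l, (∀ x ∈ l, x ∈ Λ) → F l ≤ G l) : PI Λ F ≤ PI Λ' G :=
  ENNReal.tsum_le_tsum fun N => ENNReal.div_le_div_right (iter_mono hΛ hs h N [] (by simp)) _

theorem iter_add (Λ : Set α) {F : List α → ℝ≥0∞} (hF : Meas F) (G : List α → ℝ≥0∞) (N : ℕ) :
    ∀ l, (Tp Λ)^[N] (fun l => F l + G l) l = (Tp Λ)^[N] F l + (Tp Λ)^[N] G l := by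
  induction N with
  | zero => intro l; rfl
  | succ n ih =>
    intro l
    simp only [iter_succ, ih]
    exact lintegral_add_left ((hF.iter Λ n).cons l) _

theorem PI_add (Λ : Set α) {F : List α → ℝ≥0∞} (hF : Meas F) (G : List α → ℝ≥0∞) :
    PI Λ (fun l => F l + G l) = PI Λ F + PI Λ G := by
  simp only [PI, iter_add Λ hF, ENNReal.add_div, ENNReal.tsum_add]

omit [SigmaFinite (volume : Measure α)] in
theorem iter_len (Λ : Set α) {Γ : ℕ → ℝ≥0∞} (hΓ : ∀ n, Γ n ≠ ∞) (F : List α → ℝ≥0∞) (N : ℕ) :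
    ∀ l, (Tp Λ)^[N] (fun l => Γ l.length * F l) l = Γ (l.length + N) * (Tp Λ)^[N] F l := by
  induction N with
  | zero => intro l; rfl
  | succ n ih =>
    intro l
    simp only [iter_succ, ih, List.length_cons]
    rw [lintegral_const_mul' _ _ (hΓ _), add_assoc, add_comm 1]

omit [SigmaFinite (volume : Measure α)] in
theorem PI_len (Λ : Set α) {Γ : ℕ → ℝ≥0∞} (hΓ : ∀ n, Γ n ≠ ∞) (F : List α → ℝ≥0∞) :
    PI Λ (fun l => Γ l.length * F l) = ∑' N, Γ N * ((Tp Λ)^[N] F [] / N.factorial) := by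
  simp only [PI, iter_len Λ hΓ, List.length_nil, zero_add, mul_div_assoc]

omit [SigmaFinite (volume : Measure α)] in
theorem PI_const_mul (Λ : Set α) {c : ℝ≥0∞} (hc : c ≠ ∞) (F : List α → ℝ≥0∞) :
    PI Λ (fun l => c * F l) = c * PI Λ F := by
  rw [PI_len Λ (Γ := fun _ => c) (fun _ => hc), ENNReal.tsum_mul_left]; rfl

theorem PI_sum (Λ : Set α) {ι : Type} (s : Finset ι) {F : ι → List α → ℝ≥0∞}
    (hF : ∀ i ∈ s, Meas (F i)) : PI Λ (fun l => ∑ i ∈ s, F i l) = ∑ i ∈ s, PI Λ (F i) := by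
  classical
  induction s using Finset.induction_on with
  | empty => simpa using PI_const_mul Λ ENNReal.zero_ne_top (fun _ => 0)
  | insert a s ha ih =>
    simp only [Finset.sum_insert ha]
    rw [PI_add Λ (hF a (by simp)), ih fun i hi => hF i (by simp [hi])]

omit [SigmaFinite (volume : Measure α)] in
theorem iter_one (Λ : Set α) (N : ℕ) :
    ∀ l, (Tp Λ)^[N] (fun _ => 1) l = volume Λ ^ N := by
  induction N with
  | zero => intro l; simp
  | succ n ih => intro l; simp [iter_succ, ih, pow_succ]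

/-- The exponential as an extended nonnegative real. -/
def eexp (a : ℝ) : ℝ≥0∞ := ENNReal.ofReal (Real.exp a)

theorem eexp_add (a b : ℝ) : eexp (a + b) = eexp a * eexp b := by
  rw [eexp, Real.exp_add, ENNReal.ofReal_mul (Real.exp_pos a).le]; rfl

@[simp] theorem eexp_zero : eexp 0 = 1 := by simp [eexp]

theorem eexp_ne_top (a : ℝ) : eexp a ≠ ∞ := ENNReal.ofReal_ne_top

theorem eexp_le_iff {a b : ℝ} : eexp a ≤ eexp b ↔ a ≤ b := by
  rw [eexp, eexp, ENNReal.ofReal_le_ofReal_iff (Real.exp_pos b).le, Real.exp_le_exp]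

theorem eexp_mono {a b : ℝ} (h : a ≤ b) : eexp a ≤ eexp b := eexp_le_iff.2 h

theorem eexp_sum {ι : Type} (s : Finset ι) (f : ι → ℝ) :
    eexp (∑ i ∈ s, f i) = ∏ i ∈ s, eexp (f i) := by
  classical
  induction s using Finset.induction_on with
  | empty => simp
  | insert a s ha ih => rw [Finset.sum_insert ha, Finset.prod_insert ha, eexp_add, ih]

theorem eexp_nat_mul (n : ℕ) (a : ℝ) : eexp (n * a) = eexp a ^ n := by
  simpa using eexp_sum (Finset.range n) fun _ => a

theorem eexp_log {x : ℝ≥0∞} (h0 : x ≠ 0) (h : x ≠ ∞) : eexp (Real.log x.toReal) = x := by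
  rw [eexp, Real.exp_log (ENNReal.toReal_pos h0 h), ENNReal.ofReal_toReal h]

theorem measurable_eexp : Measurable eexp := Real.measurable_exp.ennreal_ofReal

omit [SigmaFinite (volume : Measure α)] in
theorem PI_ideal {Λ : Set α} {V : ℝ} (hV : 0 ≤ V) (h : volume Λ ≤ ENNReal.ofReal V) (a : ℝ) :
    PI Λ (fun l => eexp (a * l.length)) ≤ eexp (Real.exp a * V) := by
  have := PI_len Λ (Γ := fun n => eexp (a * n)) (fun _ => eexp_ne_top _) fun _ => 1
  simp only [mul_one] at this
  have hs : HasSum (fun n : ℕ => (Real.exp a * V) ^ n / n.factorial) (Real.exp (Real.exp a * V)) := by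
    rw [Real.exp_eq_exp_ℝ]
    exact NormedSpace.expSeries_div_hasSum_exp _
  rw [this, eexp, ← hs.tsum_eq, ENNReal.ofReal_tsum_of_nonneg (fun n => by positivity) hs.summable]
  refine ENNReal.tsum_le_tsum fun N => ?_
  rw [iter_one, ENNReal.ofReal_div_of_pos (by positivity), ENNReal.ofReal_natCast,
    ENNReal.ofReal_pow (by positivity), ENNReal.ofReal_mul (by positivity), mul_pow,
    mul_comm a, eexp_nat_mul, mul_div_assoc]
  gcongr
  exact le_rfl

/-- `F` ignores the points of `S`. -/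
def Ign (F : List α → ℝ≥0∞) (S : Set α) : Prop :=
  ∀ l1 x l2, x ∈ S → F (l1 ++ x :: l2) = F (l1 ++ l2)

omit [SigmaFinite (volume : Measure α)] in
theorem Ign.iter {F : List α → ℝ≥0∞} {S : Set α} (h : Ign F S) (Λ : Set α) (N : ℕ) :
    Ign ((Tp Λ)^[N] F) S := by
  induction N with
  | zero => exact h
  | succ n ih =>
    intro l1 x l2 hx
    rw [iter_succ, iter_succ]
    exact lintegral_congr fun y => ih (y :: l1) x l2 hx

theorem iter_union {Λ1 Λ2 : Set α} (h1 : MeasurableSet Λ1) (h2 : MeasurableSet Λ2)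
    (hd : Disjoint Λ1 Λ2) {F G : List α → ℝ≥0∞} (hF : Meas F) (hG : Meas G)
    (iF : Ign F Λ2) (iG : Ign G Λ1) (N : ℕ) :
    ∀ l, (Tp (Λ1 ∪ Λ2))^[N] (fun l => F l * G l) l =
      ∑ p ∈ Finset.HasAntidiagonal.antidiagonal N,
      (N.choose p.1 : ℝ≥0∞) * ((Tp Λ1)^[p.1] F l * (Tp Λ2)^[p.2] G l) := by
  induction N with
  | zero => intro l; simp
  | succ n ih =>
    intro l
    have := Finset.sum_antidiagonal_choose_succ_mul (R := ℝ≥0∞)
      (fun i j => (Tp Λ1)^[i] F l * (Tp Λ2)^[j] G l) n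
    rw [this, iter_succ, lintegral_union h2 hd, add_comm]
    simp only [ih]
    congr 1
    · rw [lintegral_finsetSum _ fun p _ => (((hF.iter _ _).cons l).fun_mul
        ((hG.iter _ _).cons l)).const_mul _]
      refine Finset.sum_congr rfl fun p _ => ?_
      rw [iter_succ, ← lintegral_const_mul _ ((hG.iter _ _).cons l),
        ← lintegral_const_mul _ (((hG.iter _ _).cons l).const_mul _)]
      refine setLIntegral_congr_fun h2 fun x hx => ?_
      rw [show (Tp Λ1)^[p.1] F (x :: l) = (Tp Λ1)^[p.1] F l from iF.iter Λ1 p.1 [] x l hx]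
    · rw [lintegral_finsetSum _ fun p _ => (((hF.iter _ _).cons l).fun_mul
        ((hG.iter _ _).cons l)).const_mul _]
      refine Finset.sum_congr rfl fun p hp => ?_
      rw [iter_succ, ← lintegral_mul_const _ ((hF.iter _ _).cons l),
        ← lintegral_const_mul _ (((hF.iter _ _).cons l).mul_const _),
        Nat.choose_symm_of_eq_add (Finset.HasAntidiagonal.mem_antidiagonal.1 hp).symm]
      refine setLIntegral_congr_fun h1 fun x hx => ?_
      rw [show (Tp Λ2)^[p.2] G (x :: l) = (Tp Λ2)^[p.2] G l from iG.iter Λ2 p.2 [] x l hx]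

theorem PI_union {Λ1 Λ2 : Set α} (h1 : MeasurableSet Λ1) (h2 : MeasurableSet Λ2)
    (hd : Disjoint Λ1 Λ2) {F G : List α → ℝ≥0∞} (hF : Meas F) (hG : Meas G)
    (iF : Ign F Λ2) (iG : Ign G Λ1) :
    PI (Λ1 ∪ Λ2) (fun l => F l * G l) = PI Λ1 F * PI Λ2 G := by
  have e : PI Λ1 F * PI Λ2 G = ∑' p : ℕ × ℕ,
      (Tp Λ1)^[p.1] F [] / p.1.factorial * ((Tp Λ2)^[p.2] G [] / p.2.factorial) := by
    rw [ENNReal.tsum_prod']
    simp only [ENNReal.tsum_mul_left, ENNReal.tsum_mul_right, PI]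
  rw [e, ← Finset.HasAntidiagonal.sigmaAntidiagonalEquivProd.tsum_eq, ENNReal.tsum_sigma', PI]
  refine tsum_congr fun N => ?_
  rw [iter_union h1 h2 hd hF hG iF iG, tsum_fintype, div_eq_mul_inv, Finset.sum_mul]
  rw [← Finset.sum_coe_sort]
  refine Finset.sum_congr rfl fun p _ => ?_
  obtain ⟨⟨i, j⟩, hp⟩ := p
  have hp' : i + j = N := Finset.HasAntidiagonal.mem_antidiagonal.1 hp
  subst hp'
  simp only [Finset.HasAntidiagonal.sigmaAntidiagonalEquivProd, Equiv.coe_fn_mk]
  have hf : ∀ n : ℕ, (n.factorial : ℝ≥0∞) ≠ 0 := fun n => by simp [Nat.factorial_ne_zero]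
  have hc : (((i + j).choose j : ℕ) : ℝ≥0∞) ≠ 0 := by
    simp [(Nat.choose_pos (Nat.le_add_left j i)).ne']
  rw [← Nat.add_choose_mul_factorial_mul_factorial, Nat.choose_symm_add, Nat.cast_mul, Nat.cast_mul,
    ENNReal.mul_inv (Or.inr (by simp)) (Or.inr (hf _)),
    ENNReal.mul_inv (Or.inr (by simp)) (Or.inr (hf _)), div_eq_mul_inv, div_eq_mul_inv]
  have := ENNReal.mul_inv_cancel hc (by simp)
  calc _ = (((i + j).choose j : ℕ) : ℝ≥0∞) * (((i + j).choose j : ℕ) : ℝ≥0∞)⁻¹ *
      ((Tp Λ1)^[i] F [] * (i.factorial : ℝ≥0∞)⁻¹ *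
        ((Tp Λ2)^[j] G [] * (j.factorial : ℝ≥0∞)⁻¹)) := by ring
    _ = _ := by rw [this, one_mul]

theorem PI_biUnion {ι : Type} (s : Finset ι) {Λ : ι → Set α} (hΛ : ∀ i, MeasurableSet (Λ i))
    (hd : Pairwise fun i j => Disjoint (Λ i) (Λ j)) {F : ι → List α → ℝ≥0∞}
    (hF : ∀ i, Meas (F i)) (iF : ∀ i j, i ≠ j → Ign (F i) (Λ j)) :
    PI (⋃ i ∈ s, Λ i) (fun l => ∏ i ∈ s, F i l) = ∏ i ∈ s, PI (Λ i) (F i) := by
  classical
  induction s using Finset.induction_on with
  | empty =>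
    simp only [Finset.notMem_empty, iUnion_of_empty, iUnion_empty, Finset.prod_empty, PI, iter_one]
    rw [tsum_eq_single 0 fun n hn => by simp [hn]]
    simp
  | insert a s ha ih =>
    simp only [Finset.prod_insert ha, Finset.set_biUnion_insert]
    rw [PI_union (hΛ a) (Finset.measurableSet_biUnion s fun i _ => hΛ i) ?_ (hF a)
      (Meas.prod s fun i _ => hF i) ?_ ?_, ih]
    · simp only [disjoint_iUnion_right]
      exact fun i hi => hd fun e => ha (e ▸ hi)
    · intro l1 x l2 hx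
      simp only [mem_iUnion] at hx
      obtain ⟨i, hi, hx⟩ := hx
      exact iF a i (fun e => ha (e ▸ hi)) l1 x l2 hx
    · intro l1 x l2 hx
      exact Finset.prod_congr rfl fun i hi => iF i a (fun e => ha (e ▸ hi)) l1 x l2 hx

theorem iter_eq_lintegral {Λ : Set α} (N : ℕ) : ∀ {F : List α → ℝ≥0∞}, Meas F →
    (Tp Λ)^[N] F [] = ∫⁻ x in Set.pi univ fun _ : Fin N => Λ, F (List.ofFn x) := by
  have e : ∀ N : ℕ, (volume : Measure (Fin N → α)).restrict (Set.pi univ fun _ => Λ)
      = Measure.pi fun _ => volume.restrict Λ := fun N => Measure.restrict_pi_pi _ _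
  induction N with
  | zero => intro F _; simp [e]
  | succ n ih =>
    intro F hF
    rw [Function.iterate_succ_apply, ih (hF.tp Λ), e, e]
    have mp := (measurePreserving_piFinSuccAbove
      (fun _ : Fin (n + 1) => (volume : Measure α).restrict Λ) 0).symm
    have hm : Measurable fun a => F (List.ofFn
        ((MeasurableEquiv.piFinSuccAbove (fun _ : Fin (n + 1) => α) 0).symm a)) :=
      (hF (n + 1)).comp (MeasurableEquiv.measurable _)
    rw [← mp.lintegral_comp (hF (n + 1)), lintegral_prod_symm' _ hm]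
    refine lintegral_congr fun y => lintegral_congr fun x => ?_
    simp [MeasurableEquiv.piFinSuccAbove, Fin.insertNthEquiv]

omit [SigmaFinite (volume : Measure α)] in
theorem PI_map {e : α → α} (he : MeasurePreserving e) (hm : MeasurableEmbedding e) (Λ : Set α)
    (F : List α → ℝ≥0∞) : PI (e ⁻¹' Λ) (fun l => F (l.map e)) = PI Λ F := by
  have : ∀ N l, (Tp (e ⁻¹' Λ))^[N] (fun l => F (l.map e)) l = (Tp Λ)^[N] F (l.map e) := by
    intro N
    induction N with
    | zero => intro l; rfl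
    | succ n ih =>
      intro l
      simp only [iter_succ, ih, List.map_cons]
      exact he.setLIntegral_comp_preimage_emb hm (fun x => (Tp Λ)^[n] F (x :: l.map e)) Λ
  simp only [PI, this, List.map_nil]

omit [SigmaFinite (volume : Measure α)] in
theorem le_PI_zero (Λ : Set α) (F : List α → ℝ≥0∞) : F [] ≤ PI Λ F := by
  simpa [PI] using ENNReal.le_tsum (f := fun N => (Tp Λ)^[N] F [] / N.factorial) 0

omit [SigmaFinite (volume : Measure α)] in
theorem le_PI_one (Λ : Set α) (F : List α → ℝ≥0∞) : ∫⁻ x in Λ, F [x] ≤ PI Λ F := by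
  simpa [PI, Tp] using ENNReal.le_tsum (f := fun N => (Tp Λ)^[N] F [] / N.factorial) 1

end

end Vale.Agent.P171
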