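import Vale.Agent.P171.Box

/-! The thermodynamic limit of the pressure. -/

open MeasureTheory Set Metric Filter Topology
open scoped ENNReal NNReal

namespace Vale.Agent.P171

noncomputable section

/-- Volume-order limit. -/
def Lim (f : ℝ → ℝ) (a : ℝ) : Prop := Tendsto (fun L => f L / L ^ 3) atTop (𝓝 a)

theorem Lim.add {f g : ℝ → ℝ} {a b : ℝ} (hf : Lim f a) (hg : Lim g b) :
    Lim (fun L => f L + g L) (a + b) := by
  simpa only [Lim, add_div] using Tendsto.add hf hg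

theorem lim_poly (c k d : ℝ) : Lim (fun L => c + k * (L + d) ^ 3) k := by
  have h := tendsto_inv_atTop_zero (𝕜 := ℝ)
  have := ((h.pow 3).const_mul c).add ((((h.const_mul d).const_add 1).pow 3).const_mul k)
  simp only [ne_eq, OfNat.ofNat_ne_zero, not_false_eq_true, zero_pow, mul_zero, add_zero, one_pow,
    mul_one, zero_add] at this
  refine this.congr' ((eventually_gt_atTop 0).mono fun L hL => ?_)
  field_simp

theorem Lim.le {f g : ℝ → ℝ} {a b ℓ : ℝ} (hf : Lim f a) (hg : Lim g b) (hℓ : 0 < ℓ)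
    (h : ∀ j : ℕ, f (j * ℓ) ≤ g (j * ℓ)) : a ≤ b := by
  have t : Tendsto (fun j : ℕ => j * ℓ) atTop atTop :=
    tendsto_natCast_atTop_atTop.atTop_mul_const hℓ
  exact le_of_tendsto_of_tendsto' (Tendsto.comp hf t) (Tendsto.comp hg t) fun j =>
    div_le_div_of_nonneg_right (h j) (by positivity)

/-- Admissible interactions; the weight is `exp (μ n + D2 g)`. -/
structure Good (g : E → E → ℝ) : Prop where
  meas : Measurable (Function.uncurry g)
  inv : ∀ x y v, g (x + v) (y + v) = g x y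
  stab : ∀ l, D2 g l ≤ 0
  far : ∀ x y, 2 ≤ dist x y → 0 ≤ g x y

/-- Logarithm of the grand partition function. -/
def lg (g : E → E → ℝ) (μ L : ℝ) : ℝ := Real.log (Xi (cube L) μ g).toReal

/-- The pressure. -/
def pr (g : E → E → ℝ) (μ : ℝ) : ℝ := ⨆ L : ℝ≥0, lg g μ L / (L + 2) ^ 3

theorem Xi_ideal {g : E → E → ℝ} {μ a L : ℝ} (hL : 0 ≤ L)
    (h : ∀ l : List E, μ * l.length + D2 g l ≤ a * l.length) :
    Xi (cube L) μ g ≤ eexp (Real.exp a * L ^ 3) :=
  (PI_mono (meas_cube L) subset_rfl fun l _ => eexp_mono (h l)).trans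
    (PI_ideal (by positivity) (vol_cube hL).le a)

namespace Good

variable {g : E → E → ℝ} (h : Good g) {μ L : ℝ}
include h

theorem Xi_le (hL : 0 ≤ L) : Xi (cube L) μ g ≤ eexp (Real.exp μ * L ^ 3) :=
  Xi_ideal hL fun l => by linarith [h.stab l]

theorem eexp_lg (hL : 0 ≤ L) : eexp (lg g μ L) = Xi (cube L) μ g :=
  eexp_log (zero_lt_one.trans_le (one_le_Xi _ _ _)).ne'
    (ne_top_of_le_ne_top (eexp_ne_top _) (h.Xi_le hL))

theorem lg_le (hL : 0 ≤ L) {a : ℝ} (ha : Xi (cube L) μ g ≤ eexp a) : lg g μ L ≤ a := by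
  rwa [← h.eexp_lg hL, eexp_le_iff] at ha

theorem le_lg (hL : 0 ≤ L) {a : ℝ} (ha : eexp a ≤ Xi (cube L) μ g) : a ≤ lg g μ L := by
  rwa [← h.eexp_lg hL, eexp_le_iff] at ha

theorem lg_nonneg (hL : 0 ≤ L) : 0 ≤ lg g μ L := h.le_lg hL (eexp_zero ▸ one_le_Xi _ _ _)

theorem lg_le_pr (hL : 0 ≤ L) : lg g μ L ≤ pr g μ * (L + 2) ^ 3 := by
  rw [← div_le_iff₀ (by positivity)]
  refine le_ciSup (f := fun L : ℝ≥0 => lg g μ L / (L + 2) ^ 3) ⟨Real.exp μ, ?_⟩ ⟨L, hL⟩
  rintro _ ⟨L, rfl⟩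
  refine (div_le_iff₀ (by positivity)).2 ((h.lg_le L.coe_nonneg (h.Xi_le L.coe_nonneg)).trans ?_)
  gcongr
  norm_num

theorem lim (μ : ℝ) : Lim (lg g μ) (pr g μ) := by
  refine tendsto_order.2 ⟨fun a ha => ?_, fun a ha => ?_⟩
  · obtain ⟨ℓ, hℓ⟩ := exists_lt_of_lt_ciSup ha
    filter_upwards [(tendsto_order.1 (lim_poly 0 _ (-(ℓ + 2)))).1 a hℓ,
      eventually_ge_atTop ((ℓ : ℝ) + 2)] with L h1 h2
    have p : (0 : ℝ) < ℓ + 2 := by positivity
    have hL : 0 ≤ L := p.le.trans h2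
    refine h1.trans_le (div_le_div_of_nonneg_right ?_ (by positivity))
    have h3 := Xi_super h.meas h.inv h.far μ ℓ.coe_nonneg (j := ⌊L / (ℓ + 2)⌋₊)
      ((le_div_iff₀ p).1 (Nat.floor_le (by positivity)))
    rw [← h.eexp_lg ℓ.coe_nonneg, ← eexp_nat_mul] at h3
    refine le_trans ?_ (h.le_lg hL h3)
    have h4 : L + -(ℓ + 2) ≤ ⌊L / (ℓ + 2)⌋₊ * ((ℓ : ℝ) + 2) := by
      have := (div_lt_iff₀ p).1 (Nat.lt_floor_add_one (L / (ℓ + 2)))
      linarith
    have h5 := h.lg_nonneg (μ := μ) ℓ.coe_nonneg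
    calc _ ≤ 0 + lg g μ ℓ / (ℓ + 2) ^ 3 * (⌊L / (ℓ + 2)⌋₊ * ((ℓ : ℝ) + 2)) ^ 3 := by
          gcongr; linarith
      _ = _ := by push_cast; field_simp; ring
  · filter_upwards [(tendsto_order.1 (lim_poly 0 _ 2)).2 a ha, eventually_ge_atTop 0] with L h1 hL
    refine lt_of_le_of_lt (div_le_div_of_nonneg_right ?_ (by positivity)) h1
    simpa using h.lg_le_pr hL

theorem pr_nonneg (μ : ℝ) : 0 ≤ pr g μ := by
  have := (h.lg_nonneg (μ := μ) le_rfl).trans (h.lg_le_pr le_rfl)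
  nlinarith

theorem pr_le_of {a c d ℓ : ℝ} (hℓ : 0 < ℓ)
    (H : ∀ j : ℕ, Xi (cube (j * ℓ)) μ g ≤ eexp (c + a * (j * ℓ + d) ^ 3)) : pr g μ ≤ a :=
  (h.lim μ).le (lim_poly c a d) hℓ fun j => h.lg_le (by positivity) (H j)

theorem pr_le_add {g' : E → E → ℝ} (h' : Good g') {μ' a c d : ℝ}
    (H : ∀ L, 0 ≤ L → Xi (cube L) μ g ≤ eexp (c + a * (L + d) ^ 3) * Xi (cube L) μ' g') :
    pr g μ ≤ a + pr g' μ' :=
  (h.lim μ).le ((lim_poly c a d).add (h'.lim μ')) one_pos fun j => h.lg_le (by positivity) <| by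
    rw [eexp_add, h'.eexp_lg (by positivity)]
    exact H _ (by positivity)

theorem pr_le (μ : ℝ) : pr g μ ≤ Real.exp μ :=
  h.pr_le_of (c := 0) (d := 0) one_pos fun j => by simpa using h.Xi_le (L := j) (by positivity)

theorem pr_mono : Monotone (pr g) := fun μ μ' hμ => by
  simpa using h.pr_le_add h (a := 0) (c := 0) (d := 0) fun L _ =>
    Xi_le_mul (meas_cube L) subset_rfl fun l _ => by
      have : μ * l.length ≤ μ' * l.length := by gcongr
      linarith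

theorem pr_convex : ConvexOn ℝ univ (pr g) := by
  refine ⟨convex_univ, fun x _ y _ s t hs ht hst => ?_⟩
  refine h.pr_le_of (c := 0) (d := 2) one_pos fun j => ?_
  have b : ∀ μ, Xi (cube (j * 1)) μ g ≤ eexp (pr g μ * (j * 1 + 2) ^ 3) := fun μ => by
    rw [← h.eexp_lg (by positivity)]
    exact eexp_mono (h.lg_le_pr (by positivity))
  refine (Xi_convex (meas_cube _) h.meas hs ht hst (b x) (b y)).trans (eexp_mono (le_of_eq ?_))
  simp only [smul_eq_mul]
  ring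

theorem pr_cont : Continuous (pr g) :=
  continuousOn_univ.1 (h.pr_convex.continuousOn isOpen_univ)

end Good

end

end Vale.Agent.P171
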