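import Vale.Agent.P171.Pressure

/-! Quantitative Kac limit: lower and upper bounds for one more long-range attraction. -/

open MeasureTheory Set Metric Filter Topology
open scoped ENNReal NNReal

namespace Vale.Agent.P171

noncomputable section

/-- Admissible attractions, dominated by the core energy. -/
structure Adm (ψ : E → E → ℝ) (w : ℝ) : Prop where
  meas : Measurable (Function.uncurry ψ)
  inv : ∀ x y v, ψ (x + v) (y + v) = ψ x y
  nonneg : ∀ x y, 0 ≤ ψ x y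
  w0 : 0 ≤ w
  le : ∀ l, D2 ψ l ≤ w * D2 (jk 1) l

/-- Attraction minus core repulsion. -/
def ham (A : ℝ) (ψ : E → E → ℝ) (x y : E) : ℝ := ψ x y + -A * jk 1 x y

/-- Adding one more Kac attraction. -/
def more (ψ : E → E → ℝ) (a R : ℝ) (x y : E) : ℝ := ψ x y + a * jk R x y

theorem D2_ham (A : ℝ) (ψ : E → E → ℝ) (l : List E) :
    D2 (ham A ψ) l = D2 ψ l - A * D2 (jk 1) l := by
  unfold ham
  rw [D2_add, D2_mul]
  ring

theorem D2_more (ψ : E → E → ℝ) (a R : ℝ) (l : List E) :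
    D2 (more ψ a R) l = D2 ψ l + a * D2 (jk R) l := by
  unfold more
  rw [D2_add, D2_mul]

theorem W_nonneg (l : List E) : 0 ≤ D2 (jk 1) l := D2_nonneg (jk_nonneg 1) l

theorem Adm.good {ψ : E → E → ℝ} {w A : ℝ} (h : Adm ψ w) (hw : w ≤ A) : Good (ham A ψ) where
  meas := h.meas.add ((jk_meas 1).const_mul _)
  inv x y v := by simp only [ham, h.inv, jk_add]
  stab l := by
    rw [D2_ham]
    nlinarith [h.le l, W_nonneg l]
  far x y hxy := by
    rw [ham, jk_zero (by linarith)]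
    simpa using h.nonneg x y

theorem Adm.more {ψ : E → E → ℝ} {w a R : ℝ} (h : Adm ψ w) (ha : 0 ≤ a) (hR : 1 ≤ R) :
    Adm (more ψ a R) (w + 64 * a) where
  meas := h.meas.add ((jk_meas R).const_mul _)
  inv x y v := by simp only [P171.more, h.inv, jk_add]
  nonneg x y := add_nonneg (h.nonneg x y) (mul_nonneg ha (jk_nonneg R x y))
  w0 := by linarith [h.w0]
  le l := by
    rw [D2_more]
    nlinarith [h.le l, cmp_jk hR l]

theorem Adm.lower {ψ : E → E → ℝ} {w a R A : ℝ} (h : Adm ψ w) (ha : 0 < a) (hR : 1 ≤ R)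
    (hA : w + 64 * a ≤ A) (μ t : ℝ) :
    pr (ham A ψ) (μ + t) - t ^ 2 / (2 * a) ≤ pr (ham A (P171.more ψ a R)) μ := by
  rw [sub_le_iff_le_add']
  refine (h.good (by linarith)).pr_le_add ((h.more ha.le hR).good hA) (c := 0) (d := 2 * R)
    fun L hL => Xi_le_mul (meas_cube L) subset_rfl fun l hl => ?_
  have h1 := len_jk (by linarith : 0 < R) hL hl
  have hV : 0 < (L + 2 * R) ^ 3 := pow_pos (by linarith) 3
  rw [D2_ham, D2_ham, D2_more]
  generalize (L + 2 * R) ^ 3 = V at h1 hV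
  have : t * l.length ≤ t ^ 2 / (2 * a) * V + a * D2 (jk R) l := by
    refine le_of_mul_le_mul_left ?_ (a := 2 * a * V) (by positivity)
    have e : 2 * a * V * (t ^ 2 / (2 * a) * V + a * D2 (jk R) l)
        = (t * V) ^ 2 + a ^ 2 * (2 * V * D2 (jk R) l) := by field_simp
    rw [e]
    nlinarith [sq_nonneg (t * V - a * l.length), mul_le_mul_of_nonneg_left h1 (sq_nonneg a)]
  linarith

theorem natCast_le_eexp {N : ℕ} {a : ℝ} (h : (N : ℝ) ≤ Real.exp a) : (N : ℝ≥0∞) ≤ eexp a := by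
  rw [← ENNReal.ofReal_natCast]
  exact ENNReal.ofReal_le_ofReal h

theorem Adm.tail {ψ ψ' : E → E → ℝ} {w w' A ε μ μ0 : ℝ} (h : Adm ψ w) (h' : Adm ψ' w')
    (hw : w ≤ A) (hw' : w' + 1 ≤ A) (hε : 0 ≤ ε) (hμ : μ ≤ μ0)
    (H : ∀ l, D2 ψ' l ≤ D2 ψ l + ε * D2 (jk 1) l) :
    pr (ham A ψ') μ ≤ ε * Real.exp μ0 + pr (ham A ψ) μ := by
  refine (h'.good (by linarith)).pr_le_add (h.good hw) (c := 1) (d := 0) fun L hL => ?_
  refine (PI_split (meas_cube L) (by positivity) (vol_cube hL).le μ0 (G := fun l =>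
    eexp (ε * Real.exp μ0 * L ^ 3) * wt μ (ham A ψ) l) fun l _ => ?_).trans ?_
  · have : μ * l.length ≤ μ0 * l.length := by gcongr
    rw [wt, wt, ← eexp_add, D2_ham, D2_ham]
    rcases le_total (Real.exp μ0 * L ^ 3) (D2 (jk 1) l) with h1 | h1
    · exact .inl (eexp_mono (by nlinarith [h'.le l, W_nonneg l]))
    · exact .inr (eexp_mono (by nlinarith [H l]))
  · rw [PI_const_mul _ (eexp_ne_top _), add_zero, eexp_add, mul_assoc (eexp 1)]
    refine le_trans ?_ (mul_le_mul_left (natCast_le_eexp (N := 2)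
      (by simpa [one_add_one_eq_two] using Real.add_one_le_exp 1)) _)
    rw [Nat.cast_two, two_mul]
    exact add_le_add (one_le_mul (eexp_zero ▸ eexp_mono (by positivity)) (one_le_Xi _ _ _)) le_rfl

theorem Adm.box {ψ g : E → E → ℝ} {w A ε a μ μ0 m ℓ : ℝ} (h : Adm ψ w) (ha : 0 < a) (hε : 0 ≤ ε)
    (hA : w + ε + 27 * a + 1 ≤ A) (hμ : μ ≤ μ0) (hℓ : 1 ≤ ℓ)
    (hm : ∀ t ∈ Icc 0 (a * (54 * Real.exp μ0 + 1)), pr (ham A ψ) (μ + t) - t ^ 2 / (2 * a) ≤ m)
    (hg : ∀ l : List E, (∀ x ∈ l, x ∈ cube ℓ) →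
      D2 g l ≤ D2 (ham A ψ) l + ε * D2 (jk 1) l + a * l.length ^ 2 / (2 * ℓ ^ 3)) :
    Xi (cube ℓ) μ g ≤ eexp ((m + ε * Real.exp μ0 +
      (26 * Real.exp (μ0 + A * (54 * Real.exp μ0 + 1)) + 54 * Real.exp μ0 + 5) / ℓ) * ℓ ^ 3) := by
  have G := h.good (A := A) (by linarith)
  have w0 := h.w0
  have hK := Real.exp_pos μ0
  set K := Real.exp μ0
  set M := Real.exp (μ0 + A * (54 * K + 1))
  have hM : 0 < M := Real.exp_pos _
  have l0 : 0 < ℓ := by linarith
  have m0 : 0 ≤ m := (G.pr_nonneg μ).trans (by simpa using hm 0 ⟨le_rfl, by positivity⟩)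
  set N0 := ⌊(54 * K + 1) * ℓ ^ 3⌋₊
  refine (PI_split (meas_cube ℓ) (by positivity) (vol_cube l0.le).le μ0 (G := fun l =>
    ∑ N ∈ Finset.range (N0 + 1), eexp (ε * K * ℓ ^ 3 - a * N ^ 2 / (2 * ℓ ^ 3)) *
      wt (μ + a * N / ℓ ^ 3) (ham A ψ) l) fun l hl => ?_).trans ?_
  · have h1 : μ * l.length ≤ μ0 * l.length := by gcongr
    have h2 := hg l hl
    have h3 : (l.length : ℝ) ^ 2 ≤ 54 * ℓ ^ 3 * D2 (jk 1) l := by
      refine (len_jk one_pos l0.le hl).trans (mul_le_mul_of_nonneg_right ?_ (W_nonneg l))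
      have : (ℓ + 2 * 1) ^ 3 ≤ (3 * ℓ) ^ 3 := by gcongr; linarith
      linarith
    rcases le_total (K * ℓ ^ 3) (D2 (jk 1) l) with h4 | h4
    · have h5 : a * l.length ^ 2 / (2 * ℓ ^ 3) ≤ 27 * a * D2 (jk 1) l := by
        rw [div_le_iff₀ (by positivity)]
        nlinarith
      rw [D2_ham] at h2
      exact .inl (eexp_mono (by nlinarith [h.le l, W_nonneg l]))
    · refine .inr (le_trans ?_ (Finset.single_le_sum (fun _ _ => zero_le)
        (a := l.length) (Finset.mem_range.2 (Nat.lt_succ_of_le (Nat.le_floor ?_)))))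
      · rw [wt, wt, ← eexp_add]
        refine eexp_mono ?_
        have e : a * l.length / ℓ ^ 3 * l.length = 2 * (a * l.length ^ 2 / (2 * ℓ ^ 3)) := by
          field_simp
        nlinarith
      · refine le_of_pow_le_pow_left₀ two_ne_zero (by positivity) (h3.trans ?_)
        have : 54 * ℓ ^ 3 * D2 (jk 1) l ≤ 54 * ℓ ^ 3 * (K * ℓ ^ 3) := by gcongr
        have p : 0 < (ℓ ^ 3) ^ 2 := by positivity
        nlinarith [mul_pos (mul_pos hK hK) p, mul_pos hK p]
  · rw [PI_sum _ _ fun N _ k => (meas_wt G.meas _ k).const_mul _]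
    have b : ∀ N ∈ Finset.range (N0 + 1), PI (cube ℓ) (fun l => eexp (ε * K * ℓ ^ 3 -
        a * N ^ 2 / (2 * ℓ ^ 3)) * wt (μ + a * N / ℓ ^ 3) (ham A ψ) l)
        ≤ eexp ((m + ε * K) * ℓ ^ 3 + 26 * M * ℓ ^ 2) := fun N hN => by
      have h1 : (N : ℝ) ≤ (54 * K + 1) * ℓ ^ 3 :=
        (Nat.cast_le.2 (Nat.lt_succ_iff.1 (Finset.mem_range.1 hN))).trans
          (Nat.floor_le (by positivity))
      have h2 : a * N / ℓ ^ 3 ≤ a * (54 * K + 1) := by
        rw [div_le_iff₀ (by positivity), mul_assoc]; gcongr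
      have h3 := hm _ ⟨by positivity, h2⟩
      have h4 : pr (ham A ψ) (μ + a * N / ℓ ^ 3) ≤ M := (G.pr_le _).trans
        (Real.exp_le_exp.2 (add_le_add hμ (h2.trans (by gcongr; linarith))))
      have h5 := G.lg_le_pr (μ := μ + a * N / ℓ ^ 3) l0.le
      have h6 := G.pr_nonneg (μ + a * N / ℓ ^ 3)
      rw [PI_const_mul _ (eexp_ne_top _), ← Xi, ← G.eexp_lg l0.le, ← eexp_add]
      refine eexp_mono ?_
      have e : a * N ^ 2 / (2 * ℓ ^ 3) = (a * N / ℓ ^ 3) ^ 2 / (2 * a) * ℓ ^ 3 := by field_simp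
      have h7 : (ℓ + 2) ^ 3 ≤ ℓ ^ 3 + 26 * ℓ ^ 2 := by nlinarith
      rw [e]
      generalize pr (ham A ψ) (μ + a * N / ℓ ^ 3) = P at *
      nlinarith [mul_le_mul_of_nonneg_left h7 h6, mul_le_mul_of_nonneg_right h3 (pow_pos l0 3).le,
        mul_le_mul_of_nonneg_right h4 (pow_pos l0 2).le]
    have b1 : 1 ≤ eexp ((m + ε * K) * ℓ ^ 3 + 26 * M * ℓ ^ 2) :=
      eexp_zero ▸ eexp_mono (by positivity)
    refine (add_le_add b1 (Finset.sum_le_card_nsmul _ _ _ b)).trans ?_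
    rw [Finset.card_range, ← succ_nsmul', nsmul_eq_mul]
    refine (mul_le_mul_left (natCast_le_eexp (a := (54 * K + 2) + 3 * ℓ) ?_) _).trans ?_
    · have h1 : (N0 : ℝ) ≤ (54 * K + 1) * ℓ ^ 3 := Nat.floor_le (by positivity)
      have h2 : 1 ≤ ℓ ^ 3 := one_le_pow₀ hℓ
      have h3 : ℓ ^ 3 ≤ Real.exp (3 * ℓ) := by
        rw [show 3 * ℓ = (3 : ℕ) * ℓ by norm_num, Real.exp_nat_mul]
        gcongr
        linarith [Real.add_one_le_exp ℓ]
      rw [Real.exp_add]
      push_cast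
      calc _ ≤ (54 * K + 2 + 1) * ℓ ^ 3 := by linarith
        _ ≤ _ := by gcongr; exact Real.add_one_le_exp _
    · rw [← eexp_add]
      refine eexp_mono ?_
      have e : (m + ε * K + (26 * M + 54 * K + 5) / ℓ) * ℓ ^ 3
          = (m + ε * K) * ℓ ^ 3 + (26 * M + 54 * K + 5) * ℓ ^ 2 := by field_simp
      have h2 : ℓ ≤ ℓ ^ 2 := by nlinarith
      rw [e]
      nlinarith [mul_le_mul_of_nonneg_left (hℓ.trans h2) hK.le]

theorem meas_cell (ℓ s : ℝ) : Measurable (cell ℓ s) :=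
  measurable_pi_iff.2 fun i => Int.measurable_floor.comp (by fun_prop)

theorem upper (A μ0 : ℝ) : ∃ C, 0 ≤ C ∧ ∀ {ψ : E → E → ℝ} {w a μ m : ℝ} {n : ℕ}, Adm ψ w → 0 < a →
    7 * w + 19683 * a + 1 ≤ A → μ ≤ μ0 → 1 ≤ n → (∀ x y, 2 * (n : ℝ) ≤ dist x y → ψ x y = 0) →
    (∀ t ∈ Icc 0 (a * (54 * Real.exp μ0 + 1)), pr (ham A ψ) (μ + t) - t ^ 2 / (2 * a) ≤ m) →
    pr (ham A (more ψ a (n ^ 3))) μ ≤ m + C / n := by
  refine ⟨|A| * Real.exp μ0 + (26 * Real.exp (μ0 + A * (54 * Real.exp μ0 + 1)) +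
    54 * Real.exp μ0 + 5), by positivity, fun {ψ w a μ m n} h ha hA hμ hn hr hm => ?_⟩
  have w0 := h.w0
  have n1 : (1 : ℝ) ≤ n := by exact_mod_cast hn
  have n0 : (0 : ℝ) < n := by linarith
  have l1 : (1 : ℝ) ≤ ((n ^ 2 : ℕ) : ℝ) := by exact_mod_cast Nat.one_le_pow _ _ hn
  set ℓ : ℝ := ((n ^ 2 : ℕ) : ℝ) with hℓ
  have l0 : 0 < ℓ := by linarith
  have hq : (1 + 2 * ℓ / n ^ 3) ^ 6 ≤ 1 + 728 / n := by
    have e : 2 * ℓ / n ^ 3 = 2 * (1 / n) := by rw [hℓ]; push_cast; field_simp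
    have t0 : (0 : ℝ) ≤ 1 / n := by positivity
    have t1 : (1 : ℝ) / n ≤ 1 := (div_le_one n0).2 n1
    rw [e, div_eq_mul_one_div 728]
    generalize (1 : ℝ) / n = t at t0 t1
    have := fun k => pow_le_of_le_one t0 t1 (Nat.succ_ne_zero k)
    nlinarith [this 1, this 2, this 3, this 4, this 5]
  let g : E → E → ℝ := fun x y => ham (A - 6 * w / n) ψ x y + a * ((1 + 728 / n) / (2 * ℓ ^ 3))
  have hw : 6 * w / n ≤ 6 * w := div_le_self (by positivity) n1
  have G := h.good (A := A - 6 * w / n) (by linarith)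
  have hB := h.box (g := g) ha (ε := (6 * w + 19656 * a) / n) (by positivity)
    (by linarith [div_le_self (show 0 ≤ 6 * w + 19656 * a by positivity) n1]) hμ l1 hm
    fun l hl => by
      have h3 : (l.length : ℝ) ^ 2 ≤ 54 * ℓ ^ 3 * D2 (jk 1) l := by
        refine (len_jk one_pos l0.le hl).trans (mul_le_mul_of_nonneg_right ?_ (W_nonneg l))
        have : (ℓ + 2 * 1) ^ 3 ≤ (3 * ℓ) ^ 3 := by gcongr; linarith
        linarith
      have h4 : a * (728 / n / (2 * ℓ ^ 3)) * l.length ^ 2 ≤ 19656 * a / n * D2 (jk 1) l := by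
        refine (mul_le_mul_of_nonneg_left h3 (by positivity)).trans (le_of_eq ?_)
        field_simp
        ring
      simp only [g]
      rw [D2_add, D2_const, D2_ham, D2_ham]
      simp only [add_div, mul_add, add_mul]
      have e : a * (1 / (2 * ℓ ^ 3)) * l.length ^ 2 = a * l.length ^ 2 / (2 * ℓ ^ 3) := by ring
      linarith
  have gm : Measurable (Function.uncurry g) := G.meas.add_const _
  refine ((h.more ha.le (one_le_pow₀ n1)).good (by linarith)).pr_le_of (c := ℓ) (d := ℓ) l0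
    fun j => ?_
  refine (PI_mono (meas_cube _) subset_rfl (G := fun l => ∑ s ∈ Finset.range (n ^ 2),
    wt μ (fun x y => if cell ℓ s x = cell ℓ s y then g x y else 0) l) fun l _ => ?_).trans ?_
  · obtain ⟨s, hs, H⟩ := shift_ex (ℓ := n ^ 2) (n := 2 * n) (by positivity) h.nonneg
      (by simpa using hr) l
    refine le_trans ?_ (Finset.single_le_sum (fun _ _ => zero_le) hs)
    refine eexp_mono (add_le_add le_rfl ?_)
    have e : (fun x y => if cell ℓ s x = cell ℓ s y then g x y else 0) = fun x y =>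
        ((if cell ℓ s x = cell ℓ s y then ψ x y else 0) + -(A - 6 * w / n) *
          (if cell ℓ s x = cell ℓ s y then jk 1 x y else 0)) +
          a * (if cell ℓ s x = cell ℓ s y then (1 + 728 / n) / (2 * ℓ ^ 3) else 0) := by
      funext x y
      split_ifs <;> simp [g, ham]
    have h1 : D2 (fun x y => if cell ℓ s x = cell ℓ s y then jk 1 x y else 0) l ≤ D2 (jk 1) l :=
      D2_mono fun x _ y _ => by split_ifs; exacts [le_rfl, jk_nonneg 1 x y]
    have h2 : D2 (jk (n ^ 3)) l ≤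
        D2 (fun x y => if cell ℓ s x = cell ℓ s y then (1 + 728 / n) / (2 * ℓ ^ 3) else 0) l :=
      (cmp_cell (by positivity) l0 s l).trans (D2_mono fun x _ y _ => by
        split_ifs; exacts [by gcongr, le_rfl])
    have h3 : 3 * ((2 * n : ℕ) : ℝ) / ℓ * D2 ψ l ≤ 6 * w / n * D2 (jk 1) l := by
      refine (mul_le_mul_of_nonneg_left (h.le l) (by positivity)).trans (le_of_eq ?_)
      rw [hℓ]; push_cast; field_simp; ring
    rw [e, D2_add, D2_add, D2_mul, D2_mul, D2_ham, D2_more]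
    nlinarith [mul_le_mul_of_nonneg_left h1 (show 0 ≤ A - 6 * w / n by linarith),
      mul_le_mul_of_nonneg_left h2 ha.le]
  · have cm : ∀ s : ℝ, Measurable (Function.uncurry
        fun x y => if cell ℓ s x = cell ℓ s y then g x y else 0) := fun s =>
      Measurable.ite (measurableSet_eq_fun ((meas_cell ℓ s).comp measurable_fst)
        ((meas_cell ℓ s).comp measurable_snd)) gm measurable_const
    rw [PI_sum _ _ fun s _ => meas_wt (cm _) μ]
    refine (Finset.sum_le_card_nsmul _ _ _ fun s hs => (Xi_grid gm (fun x y v => by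
      simp only [g, G.inv]) μ (Nat.cast_nonneg s) (Nat.cast_lt.2 (Finset.mem_range.1 hs)) j).trans
        (pow_le_pow_left' hB _)).trans ?_
    rw [Finset.card_range, nsmul_eq_mul, ← eexp_nat_mul, eexp_add]
    refine mul_le_mul' (natCast_le_eexp (by linarith [Real.add_one_le_exp ℓ])) (eexp_mono ?_)
    have e : (j * ℓ + ℓ) ^ 3 = (((j + 1) ^ 3 : ℕ) : ℝ) * ℓ ^ 3 := by push_cast; ring
    rw [e, mul_left_comm, add_assoc, add_div (|A| * _), mul_div_right_comm]
    gcongr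
    · linarith [le_abs_self A]
    · rw [hℓ]; push_cast; nlinarith

end

end Vale.Agent.P171
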